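import Vale.Agent.H20.P073.Defs

/-!
TASK P073-CUBE (replace every `sorry`, keep the statements exactly; helper lemmas in this file,
names starting `p73c_`).

Claims: the cube `{x | ∀ i, x i ∈ Ioo 0 1}` of `Fin 3 → ℝ` is measurable, and for `φ` integrable on
`Ioo 0 1` the function `x ↦ φ (x i)` is integrable on the cube with
`∫ x in cube, φ (x i) = ∫ t in Ioo 0 1, φ t`.

Sketch.  `cube = Set.pi univ (fun _ => Ioo 0 1)` (`ext; simp [cube]`), measurable by
`MeasurableSet.univ_pi`.  `volume.restrict (Set.pi univ s) = Measure.pi (fun i => volume.restrict (s i))`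
(`MeasureTheory.Measure.restrict_pi_pi`, `volume_pi`).  The push-forward of this product measure
under `Function.eval i` is `(∏ j ∈ univ.erase i, (volume.restrict (Ioo 0 1)) univ) • volume.restrict (Ioo 0 1)`
(`MeasureTheory.Measure.pi_map_eval`), and every factor is `1` (`Real.volume_Ioo`), so
`(eval i)` is measure preserving from the restricted cube measure to `volume.restrict (Ioo 0 1)`
(`MeasurePreserving`); then `MeasurePreserving.integrable_comp` / `integral_comp` (with
`measurable_pi_apply i`, or the `MeasurableEmbedding`-free versions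
`MeasureTheory.integral_map` and `integrable_map_measure` with `AEStronglyMeasurable`).
-/

namespace Vale.Agent.H20.P073

open MeasureTheory Set

theorem p73c_cube_eq : cube = Set.pi univ (fun _ : Fin 3 => Ioo (0 : ℝ) 1) := by
  ext x
  simp [cube]

theorem p73_measurableSet_cube : MeasurableSet cube := by
  rw [p73c_cube_eq]
  exact MeasurableSet.univ_pi (fun _ => measurableSet_Ioo)

theorem p73c_restrict :
    (volume : Measure (Fin 3 → ℝ)).restrict cube
      = Measure.pi (fun _ : Fin 3 => (volume : Measure ℝ).restrict (Ioo 0 1)) := by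
  rw [p73c_cube_eq, volume_pi]
  exact Measure.restrict_pi_pi _ _

theorem p73c_map (i : Fin 3) :
    Measure.map (Function.eval i) ((volume : Measure (Fin 3 → ℝ)).restrict cube)
      = (volume : Measure ℝ).restrict (Ioo 0 1) := by
  rw [p73c_restrict, Measure.pi_map_eval]
  simp

theorem p73_cube_integral (i : Fin 3) (φ : ℝ → ℝ) (hφ : IntegrableOn φ (Ioo (0 : ℝ) 1)) :
    IntegrableOn (fun x : Fin 3 → ℝ => φ (x i)) cube ∧
    ∫ x in cube, φ (x i) = ∫ t in Ioo (0 : ℝ) 1, φ t := by
  have hmeas : AEMeasurable (Function.eval i) ((volume : Measure (Fin 3 → ℝ)).restrict cube) :=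
    (measurable_pi_apply i).aemeasurable
  have hsm : AEStronglyMeasurable φ
      (Measure.map (Function.eval i) ((volume : Measure (Fin 3 → ℝ)).restrict cube)) := by
    rw [p73c_map]
    exact hφ.aestronglyMeasurable
  constructor
  · have h1 : Integrable φ
        (Measure.map (Function.eval i) ((volume : Measure (Fin 3 → ℝ)).restrict cube)) := by
      rw [p73c_map]
      exact hφ
    exact (integrable_map_measure hsm hmeas).mp h1
  · have h2 := integral_map hmeas hsm
    rw [p73c_map] at h2
    exact h2.symm

end Vale.Agent.H20.P073
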