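import Mathlib

/-!
# P073 (Ball-Evans approximation problem in dimension three): statement-level definitions

Product maps of the open unit cube of `ℝ³` (the type `Fin 3 → ℝ`), the Euclidean norm of a
vector and the Frobenius norm of a linear map, written out in coordinates.
-/

namespace Vale.Agent.H20.P073

open Set

/-- the open unit cube `(0,1)³` of `ℝ³` -/
def cube : Set (Fin 3 → ℝ) := {x | ∀ i, x i ∈ Ioo (0 : ℝ) 1}

/-- the Euclidean norm of a vector of `ℝ³` -/
noncomputable def eucl (v : Fin 3 → ℝ) : ℝ := Real.sqrt (∑ i, v i ^ 2)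

/-- the Frobenius norm of a linear map of `ℝ³`: the Euclidean norm of its nine matrix entries
`A (e_k) i` in the standard basis -/
noncomputable def frob (A : (Fin 3 → ℝ) →L[ℝ] (Fin 3 → ℝ)) : ℝ :=
  Real.sqrt (∑ i, ∑ k, A (Pi.single k 1) i ^ 2)

/-- the product map `x ↦ (g₁ x₁, g₂ x₂, g₃ x₃)` -/
def prodMap (g : Fin 3 → ℝ → ℝ) : (Fin 3 → ℝ) → (Fin 3 → ℝ) := fun x i => g i (x i)

end Vale.Agent.H20.P073
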