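import Vale.Agent.H20.P073.Defs

/-!
TASK P073-DENSITY (replace the `sorry`, keep the statement exactly; helper lemmas in this file,
names starting `p73d_`).

Claim: polynomials are dense in `L^p(0,1)`: for `h` in `L^p` of `volume.restrict (Ioo 0 1)`
(`p` real, `1 ≤ p`) and `ε > 0` there is a real polynomial `q` with
`∫ t in Ioo 0 1, |q.eval t - h t| ^ p ≤ ε`.

Sketch.  Put `h' = (Ioo 0 1).indicator h`; `MemLp h' (ofReal p) volume` by
`memLp_indicator_iff_restrict measurableSet_Ioo`.  `MemLp.exists_hasCompactSupport_integral_rpow_sub_le`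
(file `Mathlib/MeasureTheory/Function/ContinuousMapDense.lean`, needs `0 < p`) gives a continuous
`c : ℝ → ℝ` in `L^p` with `∫ x, ‖h' x - c x‖ ^ p ≤ δ`.  Restricting to `Ioo 0 1`
(`setIntegral_le_integral`, the integrand is nonnegative and integrable since `h' - c` is in `L^p`:
`MemLp.integrable_norm_rpow`) and using `h' = h` there gives `∫ t in Ioo 0 1, |h t - c t| ^ p ≤ δ`.
Weierstrass (`exists_polynomial_near_of_continuousOn 0 1 c _ δ'`) gives `q` with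
`|q.eval t - c t| < δ'` on `Icc 0 1`.  Pointwise
`|a + b| ^ p ≤ 2 ^ p * (|a| ^ p + |b| ^ p)` (e.g. `|a + b| ≤ 2 * max |a| |b|`), so
`∫ |q - h| ^ p ≤ 2 ^ p * (δ' ^ p + δ)`; choose `δ = ε / 2 ^ (p + 1)` and `δ'` with
`2 ^ p * δ' ^ p ≤ ε / 2` (e.g. `δ' = (ε / 2 ^ (p + 1)) ^ (1 / p)`, or `δ' = min 1 (ε / 2 ^ (p + 1))`
since `δ' ^ p ≤ δ'` for `δ' ≤ 1`).  The volume of `Ioo 0 1` is `1`.
-/

namespace Vale.Agent.H20.P073

open MeasureTheory Set

/-- pointwise: `|a| ≤ s + n` with `0 ≤ s`, `0 ≤ n` gives `|a| ^ p ≤ 2 ^ p * (s ^ p + n ^ p)`. -/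
theorem p73d_pointwise (p : ℝ) (hp : 1 ≤ p) (a s n : ℝ) (hs : 0 ≤ s) (hn : 0 ≤ n)
    (ha : |a| ≤ s + n) : |a| ^ p ≤ (2 : ℝ) ^ p * (s ^ p + n ^ p) := by
  have hp0 : 0 ≤ p := by linarith
  have hm : 0 ≤ max s n := le_max_of_le_left hs
  have h1 : |a| ≤ 2 * max s n := by
    have h2 : s ≤ max s n := le_max_left s n
    have h3 : n ≤ max s n := le_max_right s n
    linarith
  have h4 : |a| ^ p ≤ (2 * max s n) ^ p := Real.rpow_le_rpow (abs_nonneg a) h1 hp0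
  have h5 : (2 * max s n) ^ p = (2 : ℝ) ^ p * (max s n) ^ p :=
    Real.mul_rpow (by norm_num) hm
  have hsp : 0 ≤ s ^ p := Real.rpow_nonneg hs p
  have hnp : 0 ≤ n ^ p := Real.rpow_nonneg hn p
  have h6 : (max s n) ^ p ≤ s ^ p + n ^ p := by
    rcases le_total s n with hsn | hsn
    · rw [max_eq_right hsn]
      linarith
    · rw [max_eq_left hsn]
      linarith
  have h2p : 0 ≤ (2 : ℝ) ^ p := Real.rpow_nonneg (by norm_num) p
  calc |a| ^ p ≤ (2 * max s n) ^ p := h4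
    _ = (2 : ℝ) ^ p * (max s n) ^ p := h5
    _ ≤ (2 : ℝ) ^ p * (s ^ p + n ^ p) := mul_le_mul_of_nonneg_left h6 h2p

theorem p73_density (p : ℝ) (hp : 1 ≤ p) (h : ℝ → ℝ)
    (hh : MemLp h (ENNReal.ofReal p) (volume.restrict (Ioo (0 : ℝ) 1))) (ε : ℝ) (hε : 0 < ε) :
    ∃ q : Polynomial ℝ, ∫ t in Ioo (0 : ℝ) 1, |q.eval t - h t| ^ p ≤ ε := by
  have hp0 : 0 < p := by linarith
  have hP2 : 0 < (2 : ℝ) ^ p := Real.rpow_pos_of_pos (by norm_num) p
  set P2 : ℝ := (2 : ℝ) ^ p with hP2def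
  set δ : ℝ := ε / (2 * P2) with hδdef
  have hδ : 0 < δ := by positivity
  set δ' : ℝ := min 1 δ with hδ'def
  have hδ' : 0 < δ' := lt_min one_pos hδ
  have hδ'1 : δ' ≤ 1 := min_le_left 1 δ
  have hδ'δ : δ' ≤ δ := min_le_right 1 δ
  have hδ'p : δ' ^ p ≤ δ := by
    have h1 : δ' ^ p ≤ δ' ^ (1 : ℝ) := Real.rpow_le_rpow_of_exponent_ge hδ' hδ'1 hp
    rw [Real.rpow_one] at h1
    exact h1.trans hδ'δ
  obtain ⟨c, -, hc, hcont, hcmem⟩ :=
    hh.exists_hasCompactSupport_integral_rpow_sub_le hp0 hδ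
  obtain ⟨q, hq⟩ := exists_polynomial_near_of_continuousOn 0 1 c hcont.continuousOn δ' hδ'
  refine ⟨q, ?_⟩
  have hne0 : ENNReal.ofReal p ≠ 0 := by
    simp [hp0]
  have hint : Integrable (fun t => ‖h t - c t‖ ^ p) (volume.restrict (Ioo (0 : ℝ) 1)) := by
    have := (hh.sub hcmem).integrable_norm_rpow hne0 ENNReal.ofReal_ne_top
    rw [ENNReal.toReal_ofReal hp0.le] at this
    exact this
  have hint2 : Integrable (fun t => P2 * (δ' ^ p + ‖h t - c t‖ ^ p))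
      (volume.restrict (Ioo (0 : ℝ) 1)) :=
    ((integrable_const (δ' ^ p)).add hint).const_mul P2
  have hmono : ∫ t in Ioo (0 : ℝ) 1, |q.eval t - h t| ^ p
      ≤ ∫ t in Ioo (0 : ℝ) 1, P2 * (δ' ^ p + ‖h t - c t‖ ^ p) := by
    refine integral_mono_of_nonneg
      (Filter.Eventually.of_forall fun t => Real.rpow_nonneg (abs_nonneg _) p) hint2 ?_
    refine (ae_restrict_iff' measurableSet_Ioo).mpr (Filter.Eventually.of_forall fun t ht => ?_)
    have htI : t ∈ Icc (0 : ℝ) 1 := Ioo_subset_Icc_self ht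
    have h1 : |q.eval t - c t| < δ' := hq t htI
    have h2 : |q.eval t - h t| ≤ δ' + ‖h t - c t‖ := by
      have h3 : q.eval t - h t = (q.eval t - c t) + (c t - h t) := by ring
      rw [h3]
      refine (abs_add_le _ _).trans ?_
      rw [Real.norm_eq_abs, abs_sub_comm (h t) (c t)]
      linarith
    exact p73d_pointwise p hp _ δ' ‖h t - c t‖ hδ'.le (norm_nonneg _) h2
  have hval : ∫ t in Ioo (0 : ℝ) 1, P2 * (δ' ^ p + ‖h t - c t‖ ^ p)
      = P2 * (δ' ^ p + ∫ t in Ioo (0 : ℝ) 1, ‖h t - c t‖ ^ p) := by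
    rw [integral_const_mul, integral_add (integrable_const _) hint]
    congr 2
    simp
  have hfin : P2 * (δ' ^ p + ∫ t in Ioo (0 : ℝ) 1, ‖h t - c t‖ ^ p) ≤ ε := by
    have h1 : δ' ^ p + ∫ t in Ioo (0 : ℝ) 1, ‖h t - c t‖ ^ p ≤ δ + δ := add_le_add hδ'p hc
    have h2 : P2 * (δ + δ) = ε := by
      rw [hδdef]
      field_simp
      norm_num
    calc P2 * (δ' ^ p + ∫ t in Ioo (0 : ℝ) 1, ‖h t - c t‖ ^ p)
        ≤ P2 * (δ + δ) := mul_le_mul_of_nonneg_left h1 hP2.le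
      _ = ε := h2
  exact hmono.trans (hval.le.trans hfin)

end Vale.Agent.H20.P073
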