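import Vale.Agent.H20.P073.Defs

/-!
TASK P073-DIAG (replace every `sorry`, keep the statements exactly; helper lemmas in this file,
names starting `p73g_`).

Claims for product maps `prodMap g x = fun i => g i (x i)`:
* `p73_fderiv_prodMap`: if every `g i` is differentiable at `x i`, the matrix entry
  `fderiv ℝ (prodMap g) x (Pi.single k 1) i` is `deriv (g i) (x i)` for `i = k` and `0` otherwise
  (`hasFDerivAt_pi` reduces to the components `x ↦ g i (x i) = g i ∘ (ContinuousLinearMap.proj i)`;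
  `HasDerivAt.comp_hasFDerivAt`, giving the derivative `(deriv (g i) (x i)) • proj i`; evaluate at
  `Pi.single k 1`: `Pi.single_apply`);
* `p73_pointwise`: with `γ i`, `g i` differentiable at `x i`,
  `eucl (prodMap γ x - prodMap g x) ^ p + frob (fderiv (prodMap γ) x - fderiv (prodMap g) x) ^ p
    ≤ 3 ^ p * ∑ i, (|γ i (x i) - g i (x i)| ^ p + |deriv (γ i) (x i) - deriv (g i) (x i)| ^ p)`
  (for `v : Fin 3 → ℝ`: `√(∑ v_i²) ≤ ∑ |v_i| ≤ 3 * max_i |v_i|`, hence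
  `(√(∑ v_i²)) ^ p ≤ 3 ^ p * ∑ |v_i| ^ p` for `p ≥ 1` (`Real.rpow_le_rpow`, `Real.mul_rpow`); the
  matrix of the difference is diagonal with entries `d_i = deriv (γ i) (x i) - deriv (g i) (x i)`
  (`ContinuousLinearMap.sub_apply`, the first claim), so `frob = √(∑ d_i²)`).
-/

namespace Vale.Agent.H20.P073

theorem p73g_hasFDerivAt (g : Fin 3 → ℝ → ℝ) (x : Fin 3 → ℝ)
    (hg : ∀ i, DifferentiableAt ℝ (g i) (x i)) :
    HasFDerivAt (prodMap g)
      (ContinuousLinearMap.pi (fun i => deriv (g i) (x i) •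
        (ContinuousLinearMap.proj i : (Fin 3 → ℝ) →L[ℝ] ℝ))) x := by
  have hpi : HasFDerivAt (fun (y : Fin 3 → ℝ) (i : Fin 3) => g i (y i))
      (ContinuousLinearMap.pi (fun i => deriv (g i) (x i) •
        (ContinuousLinearMap.proj i : (Fin 3 → ℝ) →L[ℝ] ℝ))) x := by
    rw [hasFDerivAt_pi]
    intro i
    have h1 : HasDerivAt (g i) (deriv (g i) (x i)) (x i) := (hg i).hasDerivAt
    have h2 : HasFDerivAt (fun y : Fin 3 → ℝ => y i)
        (ContinuousLinearMap.proj i : (Fin 3 → ℝ) →L[ℝ] ℝ) x :=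
      (ContinuousLinearMap.proj i : (Fin 3 → ℝ) →L[ℝ] ℝ).hasFDerivAt
    exact h1.comp_hasFDerivAt x h2
  exact hpi

theorem p73_fderiv_prodMap (g : Fin 3 → ℝ → ℝ) (x : Fin 3 → ℝ)
    (hg : ∀ i, DifferentiableAt ℝ (g i) (x i)) (i k : Fin 3) :
    fderiv ℝ (prodMap g) x (Pi.single k 1) i = if i = k then deriv (g i) (x i) else 0 := by
  rw [(p73g_hasFDerivAt g x hg).fderiv]
  simp only [ContinuousLinearMap.pi_apply, ContinuousLinearMap.smul_apply,
    ContinuousLinearMap.proj_apply, Pi.single_apply, smul_eq_mul]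
  split_ifs <;> simp

theorem p73g_key (p : ℝ) (hp : 1 ≤ p) (w : Fin 3 → ℝ) :
    Real.sqrt (∑ i, w i ^ 2) ^ p ≤ 3 ^ p * ∑ i, |w i| ^ p := by
  obtain ⟨j, -, hj⟩ := Finset.exists_max_image Finset.univ (fun i => |w i|)
    ⟨0, Finset.mem_univ _⟩
  have h1 : ∑ i, w i ^ 2 ≤ (3 * |w j|) ^ 2 := by
    have hterm : ∀ i ∈ Finset.univ, w i ^ 2 ≤ |w j| ^ 2 := by
      intro i hi
      rw [← sq_abs (w i)]
      exact pow_le_pow_left₀ (abs_nonneg _) (hj i hi) 2
    calc ∑ i, w i ^ 2 ≤ ∑ _i : Fin 3, |w j| ^ 2 := Finset.sum_le_sum hterm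
      _ = 3 * |w j| ^ 2 := by simp
      _ ≤ (3 * |w j|) ^ 2 := by nlinarith [sq_nonneg (|w j|)]
  have h2 : Real.sqrt (∑ i, w i ^ 2) ≤ 3 * |w j| := by
    calc Real.sqrt (∑ i, w i ^ 2) ≤ Real.sqrt ((3 * |w j|) ^ 2) := Real.sqrt_le_sqrt h1
      _ = 3 * |w j| := Real.sqrt_sq (by positivity)
  calc Real.sqrt (∑ i, w i ^ 2) ^ p ≤ (3 * |w j|) ^ p :=
        Real.rpow_le_rpow (Real.sqrt_nonneg _) h2 (by linarith)
    _ = 3 ^ p * |w j| ^ p := Real.mul_rpow (by norm_num) (abs_nonneg _)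
    _ ≤ 3 ^ p * ∑ i, |w i| ^ p := by
        apply mul_le_mul_of_nonneg_left _ (by positivity)
        exact Finset.single_le_sum (f := fun i => |w i| ^ p) (fun i _ => by positivity)
          (Finset.mem_univ j)

theorem p73_pointwise (p : ℝ) (hp : 1 ≤ p) (γ g : Fin 3 → ℝ → ℝ) (x : Fin 3 → ℝ)
    (hγ : ∀ i, DifferentiableAt ℝ (γ i) (x i)) (hg : ∀ i, DifferentiableAt ℝ (g i) (x i)) :
    eucl (prodMap γ x - prodMap g x) ^ p
        + frob (fderiv ℝ (prodMap γ) x - fderiv ℝ (prodMap g) x) ^ p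
      ≤ 3 ^ p * ∑ i, (|γ i (x i) - g i (x i)| ^ p
          + |deriv (γ i) (x i) - deriv (g i) (x i)| ^ p) := by
  have he : eucl (prodMap γ x - prodMap g x)
      = Real.sqrt (∑ i, (γ i (x i) - g i (x i)) ^ 2) := by
    simp [eucl, prodMap]
  have hf : frob (fderiv ℝ (prodMap γ) x - fderiv ℝ (prodMap g) x)
      = Real.sqrt (∑ i, (deriv (γ i) (x i) - deriv (g i) (x i)) ^ 2) := by
    unfold frob
    congr 1
    apply Finset.sum_congr rfl
    intro i _
    have hent : ∀ k, (fderiv ℝ (prodMap γ) x - fderiv ℝ (prodMap g) x) (Pi.single k 1) i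
        = if i = k then deriv (γ i) (x i) - deriv (g i) (x i) else 0 := by
      intro k
      rw [ContinuousLinearMap.sub_apply, Pi.sub_apply, p73_fderiv_prodMap γ x hγ,
        p73_fderiv_prodMap g x hg]
      split_ifs <;> simp
    simp_rw [hent]
    simp
  rw [he, hf]
  calc Real.sqrt (∑ i, (γ i (x i) - g i (x i)) ^ 2) ^ p
        + Real.sqrt (∑ i, (deriv (γ i) (x i) - deriv (g i) (x i)) ^ 2) ^ p
      ≤ 3 ^ p * ∑ i, |γ i (x i) - g i (x i)| ^ p
        + 3 ^ p * ∑ i, |deriv (γ i) (x i) - deriv (g i) (x i)| ^ p :=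
        add_le_add (p73g_key p hp _) (p73g_key p hp _)
    _ = 3 ^ p * ∑ i, (|γ i (x i) - g i (x i)| ^ p
          + |deriv (γ i) (x i) - deriv (g i) (x i)| ^ p) := by
        rw [← mul_add, ← Finset.sum_add_distrib]

end Vale.Agent.H20.P073
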