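import Vale.Agent.H20.P073.Inv

/-!
TASK P073-DIFFEO (done: placeholder replaced, statement kept exactly; helper lemmas in this file,
names starting `p73o_`).  Black box: `p73_inv` (Inv.lean), used as stated.

Claim: if every `γ i : ℝ → ℝ` is `C^∞` with `deriv (γ i) ≥ c_i > 0`, agrees with `g i` at `0` and
`1`, and `g i` is continuous and strictly increasing on `[0,1]`, then `prodMap γ` is a `C^∞`
diffeomorphism of `ℝ³` (two-sided `C^∞` inverse `G`) and `prodMap γ '' cube = prodMap g '' cube`.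

Sketch.  Smoothness of `prodMap γ`: `contDiff_pi` and `(hγ i).comp (contDiff_apply ℝ ℝ i)`.
Inverse: `G y i = G_i (y i)` with `G_i` from `p73_inv`; smooth the same way; the two identities
are `funext`.  Images: for a function `u` continuous and strictly increasing on `[0,1]`,
`u '' Ioo 0 1 = Ioo (u 0) (u 1)` (`⊆`: strict monotonicity; `⊇`: intermediate value theorem
`intermediate_value_Icc` gives a point of `Icc 0 1`, which is not an endpoint) — apply it to
`γ i` (strictly increasing and continuous everywhere by `p73_inv`, `ContDiff.continuous`) and to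
`g i`; the two intervals coincide since `γ i 0 = g i 0`, `γ i 1 = g i 1`.  Finally
`prodMap u '' cube = {y | ∀ i, y i ∈ u i '' Ioo 0 1}` (choose preimages coordinatewise).
-/

namespace Vale.Agent.H20.P073

open Set
open scoped ContDiff

theorem p73o_image_Ioo (u : ℝ → ℝ) (hc : ContinuousOn u (Icc (0 : ℝ) 1))
    (hm : StrictMonoOn u (Icc (0 : ℝ) 1)) : u '' Ioo (0 : ℝ) 1 = Ioo (u 0) (u 1) := by
  have m0 : (0 : ℝ) ∈ Icc (0 : ℝ) 1 := left_mem_Icc.mpr zero_le_one
  have m1 : (1 : ℝ) ∈ Icc (0 : ℝ) 1 := right_mem_Icc.mpr zero_le_one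
  ext y
  constructor
  · rintro ⟨t, ⟨ht0, ht1⟩, rfl⟩
    exact ⟨hm m0 ⟨ht0.le, ht1.le⟩ ht0, hm ⟨ht0.le, ht1.le⟩ m1 ht1⟩
  · rintro ⟨hy0, hy1⟩
    have hsub := intermediate_value_Icc (zero_le_one' ℝ) hc
    obtain ⟨t, ht, hty⟩ := hsub ⟨hy0.le, hy1.le⟩
    refine ⟨t, ⟨?_, ?_⟩, hty⟩
    · rcases eq_or_lt_of_le ht.1 with h | h
      · rw [← h] at hty
        rw [hty] at hy0
        exact absurd hy0 (lt_irrefl _)
      · exact h
    · rcases eq_or_lt_of_le ht.2 with h | h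
      · rw [h] at hty
        rw [hty] at hy1
        exact absurd hy1 (lt_irrefl _)
      · exact h

theorem p73o_image_cube (u : Fin 3 → ℝ → ℝ) :
    prodMap u '' cube = {y | ∀ i, y i ∈ u i '' Ioo (0 : ℝ) 1} := by
  ext y
  constructor
  · rintro ⟨x, hx, rfl⟩
    exact fun i => ⟨x i, hx i, rfl⟩
  · intro h
    choose x hx using h
    exact ⟨x, fun i => (hx i).1, funext fun i => (hx i).2⟩

theorem p73_diffeo (γ g : Fin 3 → ℝ → ℝ) (hγ : ∀ i, ContDiff ℝ ∞ (γ i))
    (hpos : ∀ i, ∃ c : ℝ, 0 < c ∧ ∀ t, c ≤ deriv (γ i) t)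
    (h0 : ∀ i, γ i 0 = g i 0) (h1 : ∀ i, γ i 1 = g i 1)
    (hgc : ∀ i, ContinuousOn (g i) (Icc (0 : ℝ) 1))
    (hgm : ∀ i, StrictMonoOn (g i) (Icc (0 : ℝ) 1)) :
    ContDiff ℝ ∞ (prodMap γ) ∧
    (∃ G : (Fin 3 → ℝ) → (Fin 3 → ℝ), ContDiff ℝ ∞ G ∧ (∀ x, G (prodMap γ x) = x) ∧
      ∀ y, prodMap γ (G y) = y) ∧
    prodMap γ '' cube = prodMap g '' cube := by
  have hinv : ∀ i, StrictMono (γ i) ∧ ∃ G : ℝ → ℝ, ContDiff ℝ ∞ G ∧
      (∀ t, G (γ i t) = t) ∧ ∀ y, γ i (G y) = y := by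
    intro i
    obtain ⟨c, hc, hd⟩ := hpos i
    exact p73_inv (γ i) (hγ i) c hc hd
  have hmono : ∀ i, StrictMono (γ i) := fun i => (hinv i).1
  choose Gi hGi using fun i => (hinv i).2
  refine ⟨?_, ⟨fun y i => Gi i (y i), ?_, ?_, ?_⟩, ?_⟩
  · exact contDiff_pi.mpr (fun i => (hγ i).comp (contDiff_apply ℝ ℝ i))
  · exact contDiff_pi.mpr (fun i => (hGi i).1.comp (contDiff_apply ℝ ℝ i))
  · intro x
    funext i
    exact (hGi i).2.1 (x i)
  · intro y
    funext i
    exact (hGi i).2.2 (y i)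
  · rw [p73o_image_cube γ, p73o_image_cube g]
    have hi : ∀ i, γ i '' Ioo (0 : ℝ) 1 = g i '' Ioo (0 : ℝ) 1 := by
      intro i
      rw [p73o_image_Ioo (γ i) (hγ i).continuous.continuousOn ((hmono i).strictMonoOn _),
        p73o_image_Ioo (g i) (hgc i) (hgm i), h0 i, h1 i]
    ext y
    simp only [Set.mem_ofPred_eq]
    constructor
    · intro h i
      rw [← hi i]
      exact h i
    · intro h i
      rw [hi i]
      exact h i

end Vale.Agent.H20.P073
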