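import Vale.Agent.H20.P073.Defs

/-!
TASK P073-FTC (replace every `sorry`, keep the statements exactly; helper lemmas in this file,
names starting `p73f_`).

Claims for `g` continuous on `[0,1]` and `C¹` on `(0,1)`:
* `p73_ftc`: if `deriv g` is integrable on `(0,1)` then `g t - g 0 = ∫ s in 0..t, deriv g s` for
  `t ∈ [0,1]`  (`intervalIntegral.integral_eq_sub_of_hasDerivAt_of_le` on `[0,t]`: `ContinuousOn`
  by restriction, `HasDerivAt` at interior points from `ContDiffOn` on the open set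
  (`ContDiffOn.differentiableOn`, `DifferentiableOn.differentiableAt` with `Ioo_mem_nhds`),
  interval integrability from `IntegrableOn` on `Ioo 0 1` (`intervalIntegrable_iff_integrableOn_Ioo_of_le`,
  `IntegrableOn.mono_set`));
* `p73_deriv_nonneg`: if `g` is strictly increasing on `[0,1]` then `0 ≤ deriv g t` on `(0,1)`
  (the difference quotients are `≥ 0` near `t`; e.g. `MonotoneOn.derivWithin_nonneg` together with
  `derivWithin_of_mem_nhds`/`derivWithin_of_isOpen`, or by hand from `HasDerivAt` and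
  `ge_of_tendsto`).
-/

namespace Vale.Agent.H20.P073

open MeasureTheory Set

theorem p73_ftc (g : ℝ → ℝ) (hc : ContinuousOn g (Icc (0 : ℝ) 1))
    (hd : ContDiffOn ℝ 1 g (Ioo (0 : ℝ) 1))
    (hi : IntegrableOn (deriv g) (Ioo (0 : ℝ) 1)) (t : ℝ) (ht : t ∈ Icc (0 : ℝ) 1) :
    g t - g 0 = ∫ s in (0 : ℝ)..t, deriv g s := by
  have hderiv : ∀ x ∈ Ioo (0 : ℝ) t, HasDerivAt g (deriv g x) x := by
    intro x hx
    have hx1 : x ∈ Ioo (0 : ℝ) 1 := ⟨hx.1, lt_of_lt_of_le hx.2 ht.2⟩
    exact ((hd.differentiableOn one_ne_zero).differentiableAt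
      (Ioo_mem_nhds hx1.1 hx1.2)).hasDerivAt
  have hint : IntervalIntegrable (deriv g) volume 0 t :=
    (intervalIntegrable_iff_integrableOn_Ioo_of_le ht.1).mpr
      (hi.mono_set (Ioo_subset_Ioo_right ht.2))
  exact (intervalIntegral.integral_eq_sub_of_hasDerivAt_of_le ht.1
    (hc.mono (Icc_subset_Icc_right ht.2)) hderiv hint).symm

theorem p73_deriv_nonneg (g : ℝ → ℝ) (hm : StrictMonoOn g (Icc (0 : ℝ) 1)) (t : ℝ)
    (ht : t ∈ Ioo (0 : ℝ) 1) : 0 ≤ deriv g t := by
  have h1 : derivWithin g (Icc (0 : ℝ) 1) t = deriv g t :=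
    derivWithin_of_mem_nhds (Icc_mem_nhds ht.1 ht.2)
  rw [← h1]
  exact hm.monotoneOn.derivWithin_nonneg

end Vale.Agent.H20.P073
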