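import Vale.Agent.H20.P073.Cube
import Vale.Agent.H20.P073.Diag

/-!
TASK P073-INTEGR (DONE by helper28, 20:12 UTC: proved, statement kept exactly; no helper lemma
was needed).  Black boxes (used exactly as stated):
`p73_measurableSet_cube`, `p73_cube_integral` (Cube.lean), `p73_fderiv_prodMap`, `p73_pointwise`
(Diag.lean).

Claim: for smooth `γ i` and `g i` continuous on `[0,1]`, `C¹` on `(0,1)`, with
`|deriv (γ i) - deriv (g i)| ^ p` integrable on `(0,1)`, the integrand
`Φ x = eucl (prodMap γ x - prodMap g x) ^ p + frob (fderiv (prodMap γ) x - fderiv (prodMap g) x) ^ p`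
is integrable on the cube and
`∫ x in cube, Φ x ≤ 3 ^ p * ∑ i, (∫ t in Ioo 0 1, |γ i t - g i t| ^ p + ∫ t in Ioo 0 1, |deriv (γ i) t - deriv (g i) t| ^ p)`.

Sketch.  Put `ψ i t = |γ i t - g i t| ^ p + |deriv (γ i) t - deriv (g i) t| ^ p`; it is integrable
on `Ioo 0 1` (first summand: continuous on `Icc 0 1`, hence integrable on the compact `Icc` and on
`Ioo` by `IntegrableOn.mono_set`; second: hypothesis).  By `p73_cube_integral`,
`Ψ x = 3 ^ p * ∑ i, ψ i (x i)` is integrable on the cube with integral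
`3 ^ p * ∑ i, ∫ ψ i` (`integral_const_mul`, `integral_finset_sum`, `integral_add`).  On the cube
every `γ i`, `g i` is differentiable at `x i` (`ContDiff.differentiable`; `ContDiffOn.differentiableOn`
on the open `Ioo 0 1`), so `0 ≤ Φ x ≤ Ψ x` by `p73_pointwise`.  Measurability of `Φ` on the cube:
by `p73_fderiv_prodMap` and the definitions, on the cube `Φ` equals the explicit function
`x ↦ √(∑ i, (γ i (x i) - g i (x i))²) ^ p + √(∑ i, (deriv (γ i) (x i) - deriv (g i) (x i))²) ^ p`
(nine entries, the off-diagonal ones vanish: `Fin.sum_univ_three`), whose pieces are a.e. strongly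
measurable for `volume.restrict cube`: `x ↦ deriv (g i) (x i)` is measurable (`measurable_deriv`,
`measurable_pi_apply`), `x ↦ g i (x i)` is continuous on the cube
(`ContinuousOn.aestronglyMeasurable` with `p73_measurableSet_cube`).  Alternatively
`measurable_fderiv` handles the `frob` part directly.  Then `Integrable.mono'` and
`setIntegral_mono` (or `integral_mono_of_nonneg`).
-/

namespace Vale.Agent.H20.P073

open MeasureTheory Set
open scoped ContDiff

theorem p73_integrand (p : ℝ) (hp : 1 ≤ p) (γ g : Fin 3 → ℝ → ℝ)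
    (hγ : ∀ i, ContDiff ℝ ∞ (γ i))
    (hgc : ∀ i, ContinuousOn (g i) (Icc (0 : ℝ) 1))
    (hgd : ∀ i, ContDiffOn ℝ 1 (g i) (Ioo (0 : ℝ) 1))
    (hint : ∀ i, IntegrableOn (fun t => |deriv (γ i) t - deriv (g i) t| ^ p) (Ioo (0 : ℝ) 1)) :
    IntegrableOn (fun x => eucl (prodMap γ x - prodMap g x) ^ p
        + frob (fderiv ℝ (prodMap γ) x - fderiv ℝ (prodMap g) x) ^ p) cube ∧
    ∫ x in cube, (eucl (prodMap γ x - prodMap g x) ^ p
        + frob (fderiv ℝ (prodMap γ) x - fderiv ℝ (prodMap g) x) ^ p)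
      ≤ 3 ^ p * ∑ i, ((∫ t in Ioo (0 : ℝ) 1, |γ i t - g i t| ^ p)
          + ∫ t in Ioo (0 : ℝ) 1, |deriv (γ i) t - deriv (g i) t| ^ p) := by
  have hp0 : 0 ≤ p := by linarith
  -- one-dimensional integrability
  have h1 : ∀ i, IntegrableOn (fun t => |γ i t - g i t| ^ p) (Ioo (0 : ℝ) 1) := by
    intro i
    have hc : ContinuousOn (fun t => |γ i t - g i t| ^ p) (Icc (0 : ℝ) 1) :=
      (((hγ i).continuous.continuousOn.sub (hgc i)).abs).rpow_const (fun _ _ => Or.inr hp0)
    exact (hc.integrableOn_compact isCompact_Icc).mono_set Ioo_subset_Icc_self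
  have hψ : ∀ i, IntegrableOn
      (fun t => |γ i t - g i t| ^ p + |deriv (γ i) t - deriv (g i) t| ^ p) (Ioo (0 : ℝ) 1) :=
    fun i => (h1 i).add (hint i)
  have hcube := fun i => p73_cube_integral i _ (hψ i)
  -- the majorant
  have hΨint : IntegrableOn (fun x : Fin 3 → ℝ => 3 ^ p * ∑ i, (|γ i (x i) - g i (x i)| ^ p
      + |deriv (γ i) (x i) - deriv (g i) (x i)| ^ p)) cube := by
    apply Integrable.const_mul
    exact integrable_finsetSum _ fun i _ => (hcube i).1
  have hΨval : ∫ x in cube, (3 ^ p * ∑ i, (|γ i (x i) - g i (x i)| ^ p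
      + |deriv (γ i) (x i) - deriv (g i) (x i)| ^ p))
      = 3 ^ p * ∑ i, ((∫ t in Ioo (0 : ℝ) 1, |γ i t - g i t| ^ p)
          + ∫ t in Ioo (0 : ℝ) 1, |deriv (γ i) t - deriv (g i) t| ^ p) := by
    rw [integral_const_mul, integral_finsetSum _ fun i _ => (hcube i).1]
    congr 1
    apply Finset.sum_congr rfl
    intro i _
    rw [(hcube i).2, integral_add (h1 i) (hint i)]
  -- pointwise bounds on the cube
  have hle : ∀ x ∈ cube, eucl (prodMap γ x - prodMap g x) ^ p
        + frob (fderiv ℝ (prodMap γ) x - fderiv ℝ (prodMap g) x) ^ p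
      ≤ 3 ^ p * ∑ i, (|γ i (x i) - g i (x i)| ^ p
          + |deriv (γ i) (x i) - deriv (g i) (x i)| ^ p) := by
    intro x hx
    apply p73_pointwise p hp γ g x
    · intro i
      exact ((hγ i).differentiable (by simp)).differentiableAt
    · intro i
      exact ((hgd i).differentiableOn one_ne_zero (x i) (hx i)).differentiableAt
        (isOpen_Ioo.mem_nhds (hx i))
  have hnn : ∀ x : Fin 3 → ℝ, 0 ≤ eucl (prodMap γ x - prodMap g x) ^ p
        + frob (fderiv ℝ (prodMap γ) x - fderiv ℝ (prodMap g) x) ^ p := fun x =>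
    add_nonneg (Real.rpow_nonneg (Real.sqrt_nonneg _) _) (Real.rpow_nonneg (Real.sqrt_nonneg _) _)
  -- measurability
  have hfm : Measurable (fun x : Fin 3 → ℝ =>
      frob (fderiv ℝ (prodMap γ) x - fderiv ℝ (prodMap g) x) ^ p) := by
    have e : ∀ (h : (Fin 3 → ℝ) → (Fin 3 → ℝ)) (i k : Fin 3),
        Measurable (fun x => fderiv ℝ h x (Pi.single k 1) i) :=
      fun h i k => (measurable_pi_apply i).comp (measurable_fderiv_apply_const ℝ h (Pi.single k 1))
    unfold frob
    simp only [sub_apply, Pi.sub_apply]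
    refine Measurable.pow_const (Measurable.sqrt ?_) p
    refine Finset.measurable_sum _ fun i _ => Finset.measurable_sum _ fun k _ => ?_
    exact ((e _ i k).sub (e _ i k)).pow_const 2
  have hec : ContinuousOn (fun x : Fin 3 → ℝ => eucl (prodMap γ x - prodMap g x) ^ p) cube := by
    have hg1 : ∀ i, ContinuousOn (fun x : Fin 3 → ℝ => g i (x i)) cube := fun i =>
      (hgc i).comp (continuous_apply i).continuousOn (fun x hx => Ioo_subset_Icc_self (hx i))
    have hγ1 : ∀ i, ContinuousOn (fun x : Fin 3 → ℝ => γ i (x i)) cube := fun i =>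
      ((hγ i).continuous.comp (continuous_apply i)).continuousOn
    unfold eucl prodMap
    simp only [Pi.sub_apply]
    refine ContinuousOn.rpow_const (ContinuousOn.sqrt ?_) (fun _ _ => Or.inr hp0)
    exact continuousOn_finsetSum _ fun i _ => ((hγ1 i).sub (hg1 i)).pow 2
  have hmeas : AEStronglyMeasurable (fun x : Fin 3 → ℝ => eucl (prodMap γ x - prodMap g x) ^ p
        + frob (fderiv ℝ (prodMap γ) x - fderiv ℝ (prodMap g) x) ^ p) (volume.restrict cube) :=
    (hec.aestronglyMeasurable p73_measurableSet_cube).add hfm.aestronglyMeasurable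
  have hΦint : IntegrableOn (fun x => eucl (prodMap γ x - prodMap g x) ^ p
        + frob (fderiv ℝ (prodMap γ) x - fderiv ℝ (prodMap g) x) ^ p) cube := by
    apply Integrable.mono' hΨint hmeas
    rw [ae_restrict_iff' p73_measurableSet_cube]
    exact Filter.Eventually.of_forall fun x hx => by
      rw [Real.norm_of_nonneg (hnn x)]
      exact hle x hx
  refine ⟨hΦint, ?_⟩
  rw [← hΨval]
  exact setIntegral_mono_on hΦint hΨint p73_measurableSet_cube hle

end Vale.Agent.H20.P073
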