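import Vale.Agent.H20.P073.Integr

/-!
P073 (helper20): the integrand estimate of `Integr.lean` for absolutely continuous components.
The components `g i` are differentiable almost everywhere on `[0,1]`, hence almost every point of
the cube has all its coordinates at differentiability points (`p73a_ae_diff`), and the pointwise
bound `p73_pointwise` holds almost everywhere on the cube; the rest is the proof of
`p73_integrand` (by helper28).
-/

namespace Vale.Agent.H20.P073

open MeasureTheory Set
open scoped ContDiff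

/-- almost every point of the cube has all its coordinates at differentiability points -/
theorem p73a_ae_diff (g : Fin 3 → ℝ → ℝ)
    (hac : ∀ i, AbsolutelyContinuousOnInterval (g i) 0 1) :
    ∀ᵐ x ∂((volume : Measure (Fin 3 → ℝ)).restrict cube),
      ∀ i, DifferentiableAt ℝ (g i) (x i) := by
  rw [ae_all_iff]
  intro i
  have h1 : ∀ᵐ t ∂((volume : Measure ℝ).restrict (Ioo 0 1)), DifferentiableAt ℝ (g i) t := by
    rw [ae_restrict_iff' measurableSet_Ioo]
    filter_upwards [(hac i).ae_differentiableAt] with t ht hmem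
    refine ht ?_
    rw [uIcc_of_le zero_le_one]
    exact Ioo_subset_Icc_self hmem
  rw [← p73c_map i] at h1
  exact ae_of_ae_map (measurable_pi_apply i).aemeasurable h1

theorem p73_integrand_ac (p : ℝ) (hp : 1 ≤ p) (γ g : Fin 3 → ℝ → ℝ)
    (hγ : ∀ i, ContDiff ℝ ∞ (γ i))
    (hac : ∀ i, AbsolutelyContinuousOnInterval (g i) 0 1)
    (hint : ∀ i, IntegrableOn (fun t => |deriv (γ i) t - deriv (g i) t| ^ p) (Ioo (0 : ℝ) 1)) :
    IntegrableOn (fun x => eucl (prodMap γ x - prodMap g x) ^ p
        + frob (fderiv ℝ (prodMap γ) x - fderiv ℝ (prodMap g) x) ^ p) cube ∧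
    ∫ x in cube, (eucl (prodMap γ x - prodMap g x) ^ p
        + frob (fderiv ℝ (prodMap γ) x - fderiv ℝ (prodMap g) x) ^ p)
      ≤ 3 ^ p * ∑ i, ((∫ t in Ioo (0 : ℝ) 1, |γ i t - g i t| ^ p)
          + ∫ t in Ioo (0 : ℝ) 1, |deriv (γ i) t - deriv (g i) t| ^ p) := by
  have hgc : ∀ i, ContinuousOn (g i) (Icc (0 : ℝ) 1) := fun i => by
    have h := (hac i).continuousOn
    rwa [uIcc_of_le zero_le_one] at h
  have hp0 : 0 ≤ p := by linarith
  -- one-dimensional integrability
  have h1 : ∀ i, IntegrableOn (fun t => |γ i t - g i t| ^ p) (Ioo (0 : ℝ) 1) := by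
    intro i
    have hc : ContinuousOn (fun t => |γ i t - g i t| ^ p) (Icc (0 : ℝ) 1) :=
      (((hγ i).continuous.continuousOn.sub (hgc i)).abs).rpow_const (fun _ _ => Or.inr hp0)
    exact (hc.integrableOn_compact isCompact_Icc).mono_set Ioo_subset_Icc_self
  have hψ : ∀ i, IntegrableOn
      (fun t => |γ i t - g i t| ^ p + |deriv (γ i) t - deriv (g i) t| ^ p) (Ioo (0 : ℝ) 1) :=
    fun i => (h1 i).add (hint i)
  have hcube := fun i => p73_cube_integral i _ (hψ i)
  -- the majorant
  have hΨint : IntegrableOn (fun x : Fin 3 → ℝ => 3 ^ p * ∑ i, (|γ i (x i) - g i (x i)| ^ p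
      + |deriv (γ i) (x i) - deriv (g i) (x i)| ^ p)) cube := by
    apply Integrable.const_mul
    exact integrable_finsetSum _ fun i _ => (hcube i).1
  have hΨval : ∫ x in cube, (3 ^ p * ∑ i, (|γ i (x i) - g i (x i)| ^ p
      + |deriv (γ i) (x i) - deriv (g i) (x i)| ^ p))
      = 3 ^ p * ∑ i, ((∫ t in Ioo (0 : ℝ) 1, |γ i t - g i t| ^ p)
          + ∫ t in Ioo (0 : ℝ) 1, |deriv (γ i) t - deriv (g i) t| ^ p) := by
    rw [integral_const_mul, integral_finsetSum _ fun i _ => (hcube i).1]
    congr 1
    apply Finset.sum_congr rfl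
    intro i _
    rw [(hcube i).2, integral_add (h1 i) (hint i)]
  -- pointwise bounds almost everywhere on the cube
  have hle : ∀ᵐ x ∂((volume : Measure (Fin 3 → ℝ)).restrict cube),
      eucl (prodMap γ x - prodMap g x) ^ p
        + frob (fderiv ℝ (prodMap γ) x - fderiv ℝ (prodMap g) x) ^ p
      ≤ 3 ^ p * ∑ i, (|γ i (x i) - g i (x i)| ^ p
          + |deriv (γ i) (x i) - deriv (g i) (x i)| ^ p) := by
    filter_upwards [p73a_ae_diff g hac] with x hx
    exact p73_pointwise p hp γ g x
      (fun i => ((hγ i).differentiable (by simp)).differentiableAt) hx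
  have hnn : ∀ x : Fin 3 → ℝ, 0 ≤ eucl (prodMap γ x - prodMap g x) ^ p
        + frob (fderiv ℝ (prodMap γ) x - fderiv ℝ (prodMap g) x) ^ p := fun x =>
    add_nonneg (Real.rpow_nonneg (Real.sqrt_nonneg _) _) (Real.rpow_nonneg (Real.sqrt_nonneg _) _)
  -- measurability
  have hfm : Measurable (fun x : Fin 3 → ℝ =>
      frob (fderiv ℝ (prodMap γ) x - fderiv ℝ (prodMap g) x) ^ p) := by
    have e : ∀ (h : (Fin 3 → ℝ) → (Fin 3 → ℝ)) (i k : Fin 3),
        Measurable (fun x => fderiv ℝ h x (Pi.single k 1) i) :=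
      fun h i k => (measurable_pi_apply i).comp (measurable_fderiv_apply_const ℝ h (Pi.single k 1))
    unfold frob
    simp only [sub_apply, Pi.sub_apply]
    refine Measurable.pow_const (Measurable.sqrt ?_) p
    refine Finset.measurable_sum _ fun i _ => Finset.measurable_sum _ fun k _ => ?_
    exact ((e _ i k).sub (e _ i k)).pow_const 2
  have hec : ContinuousOn (fun x : Fin 3 → ℝ => eucl (prodMap γ x - prodMap g x) ^ p) cube := by
    have hg1 : ∀ i, ContinuousOn (fun x : Fin 3 → ℝ => g i (x i)) cube := fun i =>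
      (hgc i).comp (continuous_apply i).continuousOn (fun x hx => Ioo_subset_Icc_self (hx i))
    have hγ1 : ∀ i, ContinuousOn (fun x : Fin 3 → ℝ => γ i (x i)) cube := fun i =>
      ((hγ i).continuous.comp (continuous_apply i)).continuousOn
    unfold eucl prodMap
    simp only [Pi.sub_apply]
    refine ContinuousOn.rpow_const (ContinuousOn.sqrt ?_) (fun _ _ => Or.inr hp0)
    exact continuousOn_finsetSum _ fun i _ => ((hγ1 i).sub (hg1 i)).pow 2
  have hmeas : AEStronglyMeasurable (fun x : Fin 3 → ℝ => eucl (prodMap γ x - prodMap g x) ^ p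
        + frob (fderiv ℝ (prodMap γ) x - fderiv ℝ (prodMap g) x) ^ p) (volume.restrict cube) :=
    (hec.aestronglyMeasurable p73_measurableSet_cube).add hfm.aestronglyMeasurable
  have hΦint : IntegrableOn (fun x => eucl (prodMap γ x - prodMap g x) ^ p
        + frob (fderiv ℝ (prodMap γ) x - fderiv ℝ (prodMap g) x) ^ p) cube := by
    refine Integrable.mono' hΨint hmeas (hle.mono fun x hx => ?_)
    rw [Real.norm_of_nonneg (hnn x)]
    exact hx
  refine ⟨hΦint, ?_⟩
  rw [← hΨval]
  exact integral_mono_ae hΦint hΨint hle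

end Vale.Agent.H20.P073
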