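import Vale.Agent.H20.P073.Defs

/-!
TASK P073-INV (replace the `sorry`, keep the statement exactly; helper lemmas in this file, names
starting `p73v_`).

Claim: a `C^∞` function `γ : ℝ → ℝ` with `deriv γ ≥ c > 0` everywhere is strictly increasing and
is a bijection of `ℝ` whose inverse `G` is `C^∞`.

Sketch.  Strictly increasing: `strictMono_of_deriv_pos`.  Lower bound
`γ t - γ 0 ≥ c * t` for `t ≥ 0` and `γ 0 - γ t ≥ c * (-t)` for `t ≤ 0` (mean value theorem:
`Convex.mul_sub_le_image_sub_of_le_deriv` on `univ`), so `γ` tends to `±∞` at `±∞` and is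
surjective (`Continuous.surjective` with `Filter.tendsto_atTop_mono` etc., or the intermediate
value theorem by hand).  Let `G` be the inverse (`Function.invFun`, or
`(StrictMono.orderIsoOfSurjective γ _ _).symm`).  Smoothness of `G`: build the homeomorphism
`e = (StrictMono.orderIsoOfSurjective γ hmono hsurj).toHomeomorph`, its
`OpenPartialHomeomorph` (`Homeomorph.toOpenPartialHomeomorph`), and apply
`OpenPartialHomeomorph.contDiffAt_symm_deriv` at every point (`deriv γ (G y) ≠ 0`,
`hγ.contDiffAt`, `(hγ.differentiable _).differentiableAt.hasDerivAt`); then `contDiff_iff_contDiffAt`.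
-/

namespace Vale.Agent.H20.P073

open scoped ContDiff

theorem p73_inv (γ : ℝ → ℝ) (hγ : ContDiff ℝ ∞ γ) (c : ℝ) (hc : 0 < c)
    (hd : ∀ t, c ≤ deriv γ t) :
    StrictMono γ ∧ ∃ G : ℝ → ℝ, ContDiff ℝ ∞ G ∧ (∀ t, G (γ t) = t) ∧ ∀ y, γ (G y) = y := by
  have hdiff : Differentiable ℝ γ := hγ.differentiable (by simp)
  have hmono : StrictMono γ := strictMono_of_deriv_pos (fun t => lt_of_lt_of_le hc (hd t))
  have hcont : Continuous γ := hγ.continuous
  have hge : ∀ x y, x ≤ y → c * (y - x) ≤ γ y - γ x := by
    intro x y hxy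
    exact Convex.mul_sub_le_image_sub_of_le_deriv convex_univ hcont.continuousOn
      hdiff.differentiableOn (fun t _ => hd t) x (Set.mem_univ x) y (Set.mem_univ y) hxy
  have htop : Filter.Tendsto γ Filter.atTop Filter.atTop := by
    have h1 : Filter.Tendsto (fun y : ℝ => γ 0 + c * y) Filter.atTop Filter.atTop :=
      Filter.tendsto_atTop_add_const_left _ _
        (Filter.Tendsto.const_mul_atTop hc Filter.tendsto_id)
    refine Filter.tendsto_atTop_mono' _ ?_ h1
    filter_upwards [Filter.eventually_ge_atTop (0 : ℝ)] with y hy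
    have := hge 0 y hy
    simp only [sub_zero] at this
    linarith
  have hbot : Filter.Tendsto γ Filter.atBot Filter.atBot := by
    have h1 : Filter.Tendsto (fun y : ℝ => γ 0 + c * y) Filter.atBot Filter.atBot :=
      Filter.tendsto_atBot_add_const_left _ _
        (Filter.Tendsto.const_mul_atBot hc Filter.tendsto_id)
    refine Filter.tendsto_atBot_mono' _ ?_ h1
    filter_upwards [Filter.eventually_le_atBot (0 : ℝ)] with y hy
    have := hge y 0 hy
    simp only [zero_sub] at this
    show γ y ≤ γ 0 + c * y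
    linarith
  have hsurj : Function.Surjective γ := hcont.surjective htop hbot
  let e : ℝ ≃ₜ ℝ := (StrictMono.orderIsoOfSurjective γ hmono hsurj).toHomeomorph
  have he : ∀ t, e t = γ t := fun t => rfl
  have hl : ∀ t, e.symm (γ t) = t := fun t => by
    rw [← he t]; exact e.symm_apply_apply t
  have hr : ∀ y, γ (e.symm y) = y := fun y => by
    rw [← he (e.symm y)]; exact e.apply_symm_apply y
  refine ⟨hmono, e.symm, ?_, hl, hr⟩
  rw [contDiff_iff_contDiffAt]
  intro y
  have hne : deriv γ (e.symm y) ≠ 0 := (lt_of_lt_of_le hc (hd _)).ne'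
  have key := OpenPartialHomeomorph.contDiffAt_symm_deriv (n := ∞)
    (f := e.toOpenPartialHomeomorph) (f₀' := deriv γ (e.symm y)) (a := y) hne
    (by simp) ((hdiff (e.symm y)).hasDerivAt) hγ.contDiffAt
  exact key

end Vale.Agent.H20.P073
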