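import Vale.Agent.H20.P073.Defs

/-!
TASK P073-LONE (replace the `sorry`, keep the statement exactly; helper lemmas in this file, names
starting `p73l_`).

Claim (elementary `L¹ ≤ L^p` on the unit interval): if `∫ t in Ioo 0 1, |u t| ^ p ≤ s ^ p` with
`s > 0`, `p ≥ 1`, then `∫ t in Ioo 0 1, |u t| ≤ 2 * s`.

Sketch.  Pointwise `|u| ≤ s + s ^ (1 - p) * |u| ^ p`: if `|u| ≤ s` clear (the second term is
`≥ 0`); if `|u| > s` then `|u| = |u| ^ p * |u| ^ (1 - p) ≤ |u| ^ p * s ^ (1 - p)` because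
`1 - p ≤ 0` (`Real.rpow_le_rpow_of_exponent_nonpos`, `Real.rpow_add`, `Real.rpow_one`).  Integrate
over `Ioo 0 1` (volume `1`: `Real.volume_Ioo`; `integral_mono`, `integral_add`, `integral_const`,
`integral_const_mul`): `∫ |u| ≤ s + s ^ (1 - p) * s ^ p = 2 s`.
-/

namespace Vale.Agent.H20.P073

open MeasureTheory Set

theorem p73l_pointwise (p : ℝ) (hp : 1 ≤ p) (s : ℝ) (hs : 0 < s) (x : ℝ) (hx : 0 ≤ x) :
    x ≤ s + s ^ (1 - p) * x ^ p := by
  have h1 : 0 ≤ s ^ (1 - p) * x ^ p :=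
    mul_nonneg (Real.rpow_nonneg hs.le _) (Real.rpow_nonneg hx _)
  rcases le_or_gt x s with hxs | hxs
  · linarith
  · have hx0 : 0 < x := hs.trans hxs
    have h2 : x ^ (1 - p) ≤ s ^ (1 - p) :=
      Real.rpow_le_rpow_of_nonpos hs hxs.le (by linarith)
    have h3 : x = x ^ (1 - p) * x ^ p := by
      rw [← Real.rpow_add hx0]
      simp
    have h4 : x ^ (1 - p) * x ^ p ≤ s ^ (1 - p) * x ^ p :=
      mul_le_mul_of_nonneg_right h2 (Real.rpow_nonneg hx _)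
    linarith

theorem p73_lone (p : ℝ) (hp : 1 ≤ p) (u : ℝ → ℝ) (hu : IntegrableOn u (Ioo (0 : ℝ) 1))
    (hup : IntegrableOn (fun t => |u t| ^ p) (Ioo (0 : ℝ) 1)) (s : ℝ) (hs : 0 < s)
    (h : ∫ t in Ioo (0 : ℝ) 1, |u t| ^ p ≤ s ^ p) :
    ∫ t in Ioo (0 : ℝ) 1, |u t| ≤ 2 * s := by
  have hc : IntegrableOn (fun _ : ℝ => s) (Ioo (0 : ℝ) 1) := integrable_const s
  have hm : IntegrableOn (fun t => s ^ (1 - p) * |u t| ^ p) (Ioo (0 : ℝ) 1) := hup.const_mul _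
  have h1 : ∫ t in Ioo (0 : ℝ) 1, |u t|
      ≤ ∫ t in Ioo (0 : ℝ) 1, (s + s ^ (1 - p) * |u t| ^ p) := by
    apply integral_mono hu.abs (hc.add hm)
    intro t
    exact p73l_pointwise p hp s hs _ (abs_nonneg _)
  have h2 : ∫ t in Ioo (0 : ℝ) 1, (s + s ^ (1 - p) * |u t| ^ p)
      = s + s ^ (1 - p) * ∫ t in Ioo (0 : ℝ) 1, |u t| ^ p := by
    rw [integral_add hc hm, integral_const, integral_const_mul]
    simp
  have h3 : s ^ (1 - p) * s ^ p = s := by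
    rw [← Real.rpow_add hs]
    simp
  have h4 : s ^ (1 - p) * ∫ t in Ioo (0 : ℝ) 1, |u t| ^ p ≤ s ^ (1 - p) * s ^ p :=
    mul_le_mul_of_nonneg_left h (Real.rpow_nonneg hs.le _)
  linarith

end Vale.Agent.H20.P073
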