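import Vale.Agent.H20.P073.OneD
import Vale.Agent.H20.P073.Integr
import Vale.Agent.H20.P073.Diffeo

/-!
P073-MAIN (helper20): product homeomorphisms of the cube are diffeomorphically approximable.
First the `ε` form (one global diffeomorphism with `W^{1,p}` distance at most `ε`), then the
sequence.
-/

namespace Vale.Agent.H20.P073

open MeasureTheory Set Filter Topology
open scoped ContDiff

/-- the integral of a function bounded by `δ` on `[0,1]` -/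
theorem p73m_small (p : ℝ) (hp : 1 ≤ p) (u : ℝ → ℝ) (δ : ℝ) (_hδ : 0 ≤ δ)
    (hu : ∀ t ∈ Icc (0 : ℝ) 1, |u t| ≤ δ) :
    ∫ t in Ioo (0 : ℝ) 1, |u t| ^ p ≤ δ ^ p := by
  have hp0 : 0 ≤ p := le_trans zero_le_one hp
  have h1 : ∫ t in Ioo (0 : ℝ) 1, |u t| ^ p ≤ ∫ _t in Ioo (0 : ℝ) 1, δ ^ p := by
    refine integral_mono_of_nonneg ?_ ?_ ?_
    · exact Filter.Eventually.of_forall fun t => Real.rpow_nonneg (abs_nonneg _) p
    · exact integrable_const _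
    · refine (ae_restrict_iff' measurableSet_Ioo).2 (Filter.Eventually.of_forall fun t ht => ?_)
      exact Real.rpow_le_rpow (abs_nonneg _) (hu t (Ioo_subset_Icc_self ht)) hp0
  refine h1.trans (le_of_eq ?_)
  rw [setIntegral_const]
  simp [Measure.real, Real.volume_Ioo]

/-- the `ε` form -/
theorem p73_eps (p : ℝ) (hp : 1 ≤ p) (g : Fin 3 → ℝ → ℝ)
    (hc : ∀ i, ContinuousOn (g i) (Icc (0 : ℝ) 1))
    (hd : ∀ i, ContDiffOn ℝ 1 (g i) (Ioo (0 : ℝ) 1))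
    (hm : ∀ i, StrictMonoOn (g i) (Icc (0 : ℝ) 1))
    (hL : ∀ i, MemLp (deriv (g i)) (ENNReal.ofReal p) (volume.restrict (Ioo (0 : ℝ) 1)))
    (ε : ℝ) (hε : 0 < ε) :
    ∃ F : (Fin 3 → ℝ) → (Fin 3 → ℝ), ContDiff ℝ ∞ F ∧
      (∃ G : (Fin 3 → ℝ) → (Fin 3 → ℝ), ContDiff ℝ ∞ G ∧ (∀ x, G (F x) = x) ∧
        ∀ y, F (G y) = y) ∧
      F '' cube = prodMap g '' cube ∧
      IntegrableOn (fun x => eucl (F x - prodMap g x) ^ p
        + frob (fderiv ℝ F x - fderiv ℝ (prodMap g) x) ^ p) cube ∧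
      ∫ x in cube, (eucl (F x - prodMap g x) ^ p
        + frob (fderiv ℝ F x - fderiv ℝ (prodMap g) x) ^ p) ≤ ε := by
  have hp0 : 0 ≤ p := le_trans zero_le_one hp
  have h3 : (0 : ℝ) < 3 ^ p := Real.rpow_pos_of_pos (by norm_num) p
  set δ : ℝ := min 1 (ε / (6 * 3 ^ p)) with hδdef
  have hδ : 0 < δ := lt_min one_pos (div_pos hε (by positivity))
  have hδ1 : δ ≤ 1 := min_le_left _ _
  have hδε : δ ≤ ε / (6 * 3 ^ p) := min_le_right _ _
  have hδp : δ ^ p ≤ δ := by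
    calc δ ^ p ≤ δ ^ (1 : ℝ) := Real.rpow_le_rpow_of_exponent_ge hδ hδ1 hp
      _ = δ := Real.rpow_one δ
  have h := fun i => p73_oneD p hp (g i) (hc i) (hd i) (hm i) (hL i) δ hδ
  choose γ hγs hγpos hγ0 hγ1 hγsup hγint hγLp using h
  obtain ⟨hF, hG, himg⟩ := p73_diffeo γ g hγs hγpos hγ0 hγ1 hc hm
  obtain ⟨hI, hle⟩ := p73_integrand p hp γ g hγs hc hd hγint
  refine ⟨prodMap γ, hF, hG, himg, hI, hle.trans ?_⟩
  have hsum : ∑ i, ((∫ t in Ioo (0 : ℝ) 1, |γ i t - g i t| ^ p)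
      + ∫ t in Ioo (0 : ℝ) 1, |deriv (γ i) t - deriv (g i) t| ^ p) ≤ ∑ _i : Fin 3, (δ + δ) := by
    refine Finset.sum_le_sum fun i _ => add_le_add ?_ (hγLp i)
    exact (p73m_small p hp (fun t => γ i t - g i t) δ hδ.le (hγsup i)).trans hδp
  calc 3 ^ p * ∑ i, ((∫ t in Ioo (0 : ℝ) 1, |γ i t - g i t| ^ p)
      + ∫ t in Ioo (0 : ℝ) 1, |deriv (γ i) t - deriv (g i) t| ^ p)
      ≤ 3 ^ p * ∑ _i : Fin 3, (δ + δ) := mul_le_mul_of_nonneg_left hsum h3.le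
    _ = 6 * 3 ^ p * δ := by
        rw [Finset.sum_const, Finset.card_univ, Fintype.card_fin]
        simp only [nsmul_eq_mul]
        push_cast
        ring
    _ ≤ 6 * 3 ^ p * (ε / (6 * 3 ^ p)) := mul_le_mul_of_nonneg_left hδε (by positivity)
    _ = ε := by field_simp

theorem p73_main (p : ℝ) (hp : 1 ≤ p) (g : Fin 3 → ℝ → ℝ)
    (hc : ∀ i, ContinuousOn (g i) (Icc (0 : ℝ) 1))
    (hd : ∀ i, ContDiffOn ℝ 1 (g i) (Ioo (0 : ℝ) 1))
    (hm : ∀ i, StrictMonoOn (g i) (Icc (0 : ℝ) 1))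
    (hL : ∀ i, MemLp (deriv (g i)) (ENNReal.ofReal p) (volume.restrict (Ioo (0 : ℝ) 1))) :
    ∃ F : ℕ → (Fin 3 → ℝ) → (Fin 3 → ℝ),
      (∀ j, ContDiff ℝ ∞ (F j) ∧
        (∃ G : (Fin 3 → ℝ) → (Fin 3 → ℝ), ContDiff ℝ ∞ G ∧ (∀ x, G (F j x) = x) ∧
          ∀ y, F j (G y) = y) ∧
        F j '' cube = prodMap g '' cube ∧
        IntegrableOn (fun x => eucl (F j x - prodMap g x) ^ p
          + frob (fderiv ℝ (F j) x - fderiv ℝ (prodMap g) x) ^ p) cube) ∧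
      Tendsto (fun j => ∫ x in cube, (eucl (F j x - prodMap g x) ^ p
          + frob (fderiv ℝ (F j) x - fderiv ℝ (prodMap g) x) ^ p)) atTop (𝓝 0) := by
  have h := fun j : ℕ => p73_eps p hp g hc hd hm hL (1 / ((j : ℝ) + 1)) (by positivity)
  choose F hF hG himg hI hle using h
  refine ⟨F, fun j => ⟨hF j, hG j, himg j, hI j⟩, ?_⟩
  refine tendsto_of_tendsto_of_tendsto_of_le_of_le tendsto_const_nhds
    tendsto_one_div_add_atTop_nhds_zero_nat (fun j => ?_) (fun j => hle j)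
  refine integral_nonneg fun x => ?_
  exact add_nonneg (Real.rpow_nonneg (Real.sqrt_nonneg _) p)
    (Real.rpow_nonneg (Real.sqrt_nonneg _) p)

end Vale.Agent.H20.P073
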