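import Vale.Agent.H20.P073.OneD

/-!
P073 (helper20): the one-dimensional approximation lemma for absolutely continuous `g`.

`p73_oneD_core` is `p73_oneD` with the fundamental theorem of calculus as a hypothesis
(`g t - g 0 = ∫ u in 0..t, deriv g u` on `[0,1]`) in place of `C¹` regularity; the proof is the
same.  `p73_oneD_ac` derives that hypothesis from absolute continuity on `[0,1]`
(`AbsolutelyContinuousOnInterval.integral_deriv_eq_sub`).
-/

namespace Vale.Agent.H20.P073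

open MeasureTheory Set
open scoped ContDiff

theorem p73_oneD_core (p : ℝ) (hp : 1 ≤ p) (g : ℝ → ℝ)
    (hF : ∀ t ∈ Icc (0 : ℝ) 1, g t - g 0 = ∫ u in (0 : ℝ)..t, deriv g u)
    (hm : StrictMonoOn g (Icc (0 : ℝ) 1))
    (hL : MemLp (deriv g) (ENNReal.ofReal p) (volume.restrict (Ioo (0 : ℝ) 1)))
    (ε : ℝ) (hε : 0 < ε) :
    ∃ γ : ℝ → ℝ, ContDiff ℝ ∞ γ ∧ (∃ c : ℝ, 0 < c ∧ ∀ t, c ≤ deriv γ t) ∧
      γ 0 = g 0 ∧ γ 1 = g 1 ∧ (∀ t ∈ Icc (0 : ℝ) 1, |γ t - g t| ≤ ε) ∧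
      IntegrableOn (fun t => |deriv γ t - deriv g t| ^ p) (Ioo (0 : ℝ) 1) ∧
      ∫ t in Ioo (0 : ℝ) 1, |deriv γ t - deriv g t| ^ p ≤ ε := by
  have hp0 : 0 < p := lt_of_lt_of_le one_pos hp
  have hhint : IntegrableOn (deriv g) (Ioo (0 : ℝ) 1) := p73e_int p hp _ hL
  have hh0 : ∀ t ∈ Ioo (0 : ℝ) 1, 0 ≤ deriv g t := fun t ht => p73_deriv_nonneg g hm t ht
  have hLval : g 1 - g 0 = ∫ t in Ioo (0 : ℝ) 1, deriv g t := by
    rw [hF 1 (right_mem_Icc.2 zero_le_one), p73e_interval]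
  have hLpos : 0 < g 1 - g 0 :=
    sub_pos.2 (hm (left_mem_Icc.2 zero_le_one) (right_mem_Icc.2 zero_le_one) one_pos)
  obtain ⟨L, hLdef⟩ : ∃ L : ℝ, L = g 1 - g 0 := ⟨_, rfl⟩
  rw [← hLdef] at hLval hLpos
  have hMint : IntegrableOn (fun t => |deriv g t| ^ p) (Ioo (0 : ℝ) 1) :=
    p73e_int_rpow p hp _ hL
  obtain ⟨M, hMdef⟩ : ∃ M : ℝ, M = ∫ t in Ioo (0 : ℝ) 1, |deriv g t| ^ p := ⟨_, rfl⟩
  have hM0 : 0 ≤ M := by
    rw [hMdef]
    exact integral_nonneg fun t => Real.rpow_nonneg (abs_nonneg _) p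
  -- parameters
  obtain ⟨θ, hθdef⟩ : ∃ θ : ℝ, θ = min ε ((ε / 2) ^ p) := ⟨_, rfl⟩
  have hθ : 0 < θ := by
    rw [hθdef]
    exact lt_min hε (Real.rpow_pos_of_pos (by positivity) p)
  have hθε : θ ≤ ε := by
    rw [hθdef]
    exact min_le_left _ _
  have hθε2 : θ ≤ (ε / 2) ^ p := by
    rw [hθdef]
    exact min_le_right _ _
  obtain ⟨A, hAdef⟩ : ∃ A : ℝ, A = 2 ^ p * ((8 / L) ^ p * (1 + M) + 1) := ⟨_, rfl⟩
  have h2p : (0 : ℝ) < 2 ^ p := Real.rpow_pos_of_pos (by norm_num) p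
  have h8L : (0 : ℝ) ≤ (8 / L) ^ p := Real.rpow_nonneg (by positivity) p
  have hA : 0 < A := by
    rw [hAdef]
    have h3 : 0 ≤ (8 / L) ^ p * (1 + M) := mul_nonneg h8L (by linarith)
    exact mul_pos h2p (by linarith)
  obtain ⟨s, hsdef⟩ : ∃ s : ℝ, s = min (min 1 (L / 4)) (θ / A) := ⟨_, rfl⟩
  have hs : 0 < s := by
    rw [hsdef]
    exact lt_min (lt_min one_pos (by positivity)) (div_pos hθ hA)
  have hs1 : s ≤ 1 := by
    rw [hsdef]
    exact (min_le_left _ _).trans (min_le_left _ _)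
  have hsL : s ≤ L / 4 := by
    rw [hsdef]
    exact (min_le_left _ _).trans (min_le_right _ _)
  have hsθ : s ≤ θ / A := by
    rw [hsdef]
    exact min_le_right _ _
  have hsp0 : 0 ≤ s ^ p := Real.rpow_nonneg hs.le p
  have hsp1 : s ^ p ≤ 1 := Real.rpow_le_one hs.le hs1 hp0.le
  have hsps : s ^ p ≤ s := by
    calc s ^ p ≤ s ^ (1 : ℝ) := Real.rpow_le_rpow_of_exponent_ge hs hs1 hp
      _ = s := Real.rpow_one s
  have hη : 0 < s / 4 := by positivity
  -- density and the positive smooth density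
  obtain ⟨q, hq⟩ := p73_density p hp (deriv g) hL ((s / 4) ^ p) (Real.rpow_pos_of_pos hη p)
  obtain ⟨hks, hkη, hky⟩ := p73_pos q (s / 4) hη
  obtain ⟨k, hkdef⟩ :
      ∃ k : ℝ → ℝ, k = fun t : ℝ => Real.sqrt (q.eval t ^ 2 + (s / 4) ^ 2) := ⟨_, rfl⟩
  rw [← hkdef] at hks
  have hkη' : ∀ t, s / 4 ≤ k t := fun t => by
    rw [hkdef]
    exact hkη t
  have hky' : ∀ t y : ℝ, 0 ≤ y → |k t - y| ≤ |q.eval t - y| + s / 4 := fun t y hy => by
    rw [hkdef]
    exact hky t y hy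
  have hkc : Continuous k := hks.continuous
  have hqL : MemLp (fun t => q.eval t) (ENNReal.ofReal p) (volume.restrict (Ioo (0 : ℝ) 1)) :=
    p73e_memLp_cont p _ q.continuous
  have hkL : MemLp k (ENNReal.ofReal p) (volume.restrict (Ioo (0 : ℝ) 1)) :=
    p73e_memLp_cont p _ hkc
  have hqh : IntegrableOn (fun t => |q.eval t - deriv g t| ^ p) (Ioo (0 : ℝ) 1) :=
    p73e_int_rpow p hp _ (hqL.sub hL)
  have hkh : IntegrableOn (fun t => |k t - deriv g t| ^ p) (Ioo (0 : ℝ) 1) :=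
    p73e_int_rpow p hp _ (hkL.sub hL)
  have hkp : IntegrableOn (fun t => |k t| ^ p) (Ioo (0 : ℝ) 1) := p73e_int_rpow p hp _ hkL
  -- (R1)
  have hR1 : ∫ t in Ioo (0 : ℝ) 1, |k t - deriv g t| ^ p ≤ s ^ p := by
    have hpt : ∀ t ∈ Ioo (0 : ℝ) 1,
        |k t - deriv g t| ^ p ≤ 2 ^ p * (|q.eval t - deriv g t| ^ p + (s / 4) ^ p) := by
      intro t ht
      have h1 := hky' t (deriv g t) (hh0 t ht)
      have h2 : |k t - deriv g t| ^ p ≤ (|q.eval t - deriv g t| + s / 4) ^ p :=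
        Real.rpow_le_rpow (abs_nonneg _) h1 hp0.le
      have h3 := p73e_add_rpow p hp0.le (|q.eval t - deriv g t|) (s / 4)
      rw [abs_abs, abs_of_pos hη, abs_of_nonneg (by positivity)] at h3
      exact h2.trans h3
    have hconst : IntegrableOn (fun _ : ℝ => (s / 4) ^ p) (Ioo (0 : ℝ) 1) := integrable_const _
    calc ∫ t in Ioo (0 : ℝ) 1, |k t - deriv g t| ^ p
        ≤ ∫ t in Ioo (0 : ℝ) 1, 2 ^ p * (|q.eval t - deriv g t| ^ p + (s / 4) ^ p) :=
          setIntegral_mono_on hkh ((hqh.add hconst).const_mul _) measurableSet_Ioo hpt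
      _ = 2 ^ p * ((∫ t in Ioo (0 : ℝ) 1, |q.eval t - deriv g t| ^ p) + (s / 4) ^ p) := by
          rw [integral_const_mul, integral_add hqh hconst, setIntegral_const]
          simp [Measure.real, Real.volume_Ioo]
      _ ≤ 2 ^ p * ((s / 4) ^ p + (s / 4) ^ p) := by gcongr
      _ ≤ s ^ p := by
          have h4 : s ^ p = 4 ^ p * (s / 4) ^ p := by
            rw [← Real.mul_rpow (by norm_num) hη.le]
            congr 1
            ring
          have h5 : (4 : ℝ) ^ p = 2 ^ p * 2 ^ p := by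
            rw [← Real.mul_rpow (by norm_num) (by norm_num)]
            norm_num
          have h6 : (2 : ℝ) ≤ 2 ^ p := by
            calc (2 : ℝ) = 2 ^ (1 : ℝ) := (Real.rpow_one 2).symm
              _ ≤ 2 ^ p := Real.rpow_le_rpow_of_exponent_le (by norm_num) hp
          rw [h4, h5]
          have h7 : (0 : ℝ) ≤ (s / 4) ^ p := Real.rpow_nonneg hη.le p
          nlinarith [mul_nonneg h2p.le h7, mul_nonneg (mul_nonneg h2p.le h7) (sub_nonneg.2 h6)]
  -- (R2), (R3)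
  have hkhint : IntegrableOn (fun t => k t - deriv g t) (Ioo (0 : ℝ) 1) :=
    p73e_int p hp _ (hkL.sub hL)
  have hR2 : ∫ t in Ioo (0 : ℝ) 1, |k t - deriv g t| ≤ 2 * s :=
    p73_lone p hp (fun t => k t - deriv g t) hkhint hkh s hs hR1
  have hkint : IntegrableOn k (Ioo (0 : ℝ) 1) := p73e_int p hp _ hkL
  obtain ⟨K1, hK1def⟩ : ∃ K1 : ℝ, K1 = ∫ t in Ioo (0 : ℝ) 1, k t := ⟨_, rfl⟩
  have hR3 : |K1 - L| ≤ 2 * s := by
    have h1 : K1 - L = ∫ t in Ioo (0 : ℝ) 1, (k t - deriv g t) := by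
      rw [hK1def, hLval, integral_sub hkint hhint]
    rw [h1]
    exact abs_integral_le_integral_abs.trans hR2
  have hK1 : L / 2 ≤ K1 := by
    have h1 := (abs_le.1 hR3).1
    linarith
  have hK1pos : 0 < K1 := lt_of_lt_of_le (by positivity) hK1
  obtain ⟨c, hcdef⟩ : ∃ c : ℝ, c = L / K1 := ⟨_, rfl⟩
  have hcpos : 0 < c := by
    rw [hcdef]
    positivity
  have hcK : c * K1 = L := by
    rw [hcdef]
    field_simp
  have hc1 : |c - 1| ≤ 4 * s / L := by
    have h1 : c - 1 = (L - K1) / K1 := by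
      rw [hcdef]
      field_simp
    rw [h1, abs_div, abs_of_pos hK1pos]
    have h2 : |L - K1| ≤ 2 * s := by
      rw [abs_sub_comm]
      exact hR3
    calc |L - K1| / K1 ≤ 2 * s / (L / 2) := by gcongr
      _ = 4 * s / L := by
          field_simp
          ring
  -- the approximant
  obtain ⟨hKs, hKd⟩ := p73_prim k hks
  obtain ⟨γ, hγdef⟩ : ∃ γ : ℝ → ℝ, γ = fun t => g 0 + c * ∫ u in (0 : ℝ)..t, k u := ⟨_, rfl⟩
  have hγs : ContDiff ℝ ∞ γ := by
    rw [hγdef]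
    exact contDiff_const.add (contDiff_const.mul hKs)
  have hγd : ∀ t, HasDerivAt γ (c * k t) t := fun t => by
    rw [hγdef]
    exact ((hKd t).const_mul c).const_add (g 0)
  have hγder : ∀ t, deriv γ t = c * k t := fun t => (hγd t).deriv
  have hγ0 : γ 0 = g 0 := by
    rw [hγdef]
    simp
  have hγ1 : γ 1 = g 1 := by
    rw [hγdef]
    simp only
    rw [p73e_interval, ← hK1def, hcK, hLdef]
    ring
  -- (R6)
  have hckL : MemLp (fun t => c * k t) (ENNReal.ofReal p) (volume.restrict (Ioo (0 : ℝ) 1)) :=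
    hkL.const_mul c
  have hckh : IntegrableOn (fun t => |c * k t - deriv g t| ^ p) (Ioo (0 : ℝ) 1) :=
    p73e_int_rpow p hp _ (hckL.sub hL)
  have hkbound : ∫ t in Ioo (0 : ℝ) 1, |k t| ^ p ≤ 2 ^ p * (s ^ p + M) := by
    have hpt : ∀ t ∈ Ioo (0 : ℝ) 1,
        |k t| ^ p ≤ 2 ^ p * (|k t - deriv g t| ^ p + |deriv g t| ^ p) := by
      intro t _
      have h3 := p73e_add_rpow p hp0.le (k t - deriv g t) (deriv g t)
      rwa [sub_add_cancel] at h3
    calc ∫ t in Ioo (0 : ℝ) 1, |k t| ^ p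
        ≤ ∫ t in Ioo (0 : ℝ) 1, 2 ^ p * (|k t - deriv g t| ^ p + |deriv g t| ^ p) :=
          setIntegral_mono_on hkp ((hkh.add hMint).const_mul _) measurableSet_Ioo hpt
      _ = 2 ^ p * ((∫ t in Ioo (0 : ℝ) 1, |k t - deriv g t| ^ p) + M) := by
          rw [integral_const_mul, integral_add hkh hMint, hMdef]
      _ ≤ 2 ^ p * (s ^ p + M) := by gcongr
  have hR6 : ∫ t in Ioo (0 : ℝ) 1, |c * k t - deriv g t| ^ p ≤ θ := by
    have hpt : ∀ t ∈ Ioo (0 : ℝ) 1, |c * k t - deriv g t| ^ p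
        ≤ 2 ^ p * (|c - 1| ^ p * |k t| ^ p + |k t - deriv g t| ^ p) := by
      intro t _
      have h3 := p73e_add_rpow p hp0.le ((c - 1) * k t) (k t - deriv g t)
      have h4 : (c - 1) * k t + (k t - deriv g t) = c * k t - deriv g t := by ring
      rw [h4, abs_mul, Real.mul_rpow (abs_nonneg _) (abs_nonneg _)] at h3
      exact h3
    have hkint0 : 0 ≤ ∫ t in Ioo (0 : ℝ) 1, |k t| ^ p :=
      integral_nonneg fun t => Real.rpow_nonneg (abs_nonneg _) p
    have h5 : |c - 1| ^ p ≤ (4 * s / L) ^ p := Real.rpow_le_rpow (abs_nonneg _) hc1 hp0.le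
    have h7 : (4 * s / L) ^ p * 2 ^ p = s ^ p * (8 / L) ^ p := by
      rw [← Real.mul_rpow (by positivity) (by norm_num), ← Real.mul_rpow hs.le (by positivity)]
      congr 1
      field_simp
      ring
    calc ∫ t in Ioo (0 : ℝ) 1, |c * k t - deriv g t| ^ p
        ≤ ∫ t in Ioo (0 : ℝ) 1, 2 ^ p * (|c - 1| ^ p * |k t| ^ p + |k t - deriv g t| ^ p) :=
          setIntegral_mono_on hckh (((hkp.const_mul _).add hkh).const_mul _) measurableSet_Ioo hpt
      _ = 2 ^ p * (|c - 1| ^ p * (∫ t in Ioo (0 : ℝ) 1, |k t| ^ p)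
            + ∫ t in Ioo (0 : ℝ) 1, |k t - deriv g t| ^ p) := by
          rw [integral_const_mul, integral_add (hkp.const_mul _) hkh, integral_const_mul]
      _ ≤ 2 ^ p * ((4 * s / L) ^ p * (2 ^ p * (s ^ p + M)) + s ^ p) := by gcongr
      _ = 2 ^ p * (s ^ p * (8 / L) ^ p * (s ^ p + M) + s ^ p) := by
          rw [← mul_assoc ((4 * s / L) ^ p), h7]
      _ ≤ 2 ^ p * (s ^ p * (8 / L) ^ p * (1 + M) + s ^ p) := by gcongr
      _ = s ^ p * A := by
          rw [hAdef]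
          ring
      _ ≤ s * A := by gcongr
      _ ≤ θ / A * A := by gcongr
      _ = θ := by field_simp
  -- (R7)
  have hckint : IntegrableOn (fun t => c * k t - deriv g t) (Ioo (0 : ℝ) 1) :=
    p73e_int p hp _ (hckL.sub hL)
  have hR7 : ∫ t in Ioo (0 : ℝ) 1, |c * k t - deriv g t| ≤ ε := by
    have h1 := p73_lone p hp (fun t => c * k t - deriv g t) hckint hckh (ε / 2) (by positivity)
      (hR6.trans hθε2)
    linarith
  have hsup : ∀ t ∈ Icc (0 : ℝ) 1, |γ t - g t| ≤ ε := by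
    intro t ht
    have hkI : IntervalIntegrable k volume 0 t := hkc.intervalIntegrable _ _
    have hhI : IntervalIntegrable (deriv g) volume 0 t :=
      (intervalIntegrable_iff_integrableOn_Ioo_of_le ht.1).2
        (hhint.mono_set (Ioo_subset_Ioo le_rfl ht.2))
    have h1 : γ t - g t = ∫ u in (0 : ℝ)..t, (c * k u - deriv g u) := by
      have h2 := hF t ht
      rw [intervalIntegral.integral_sub (hkI.const_mul c) hhI,
        intervalIntegral.integral_const_mul, ← h2, hγdef]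
      ring
    rw [h1]
    calc |∫ u in (0 : ℝ)..t, (c * k u - deriv g u)|
        ≤ ∫ u in (0 : ℝ)..t, |c * k u - deriv g u| :=
          intervalIntegral.abs_integral_le_integral_abs ht.1
      _ = ∫ u in Ioo (0 : ℝ) t, |c * k u - deriv g u| := by
          rw [intervalIntegral.integral_of_le ht.1, integral_Ioc_eq_integral_Ioo]
      _ ≤ ∫ u in Ioo (0 : ℝ) 1, |c * k u - deriv g u| :=
          setIntegral_mono_set (Integrable.abs hckint)
            (Filter.Eventually.of_forall fun u => abs_nonneg _)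
            (Ioo_subset_Ioo le_rfl ht.2).eventuallyLE
      _ ≤ ε := hR7
  have hfun : (fun t => |deriv γ t - deriv g t| ^ p) = fun t => |c * k t - deriv g t| ^ p := by
    funext t
    rw [hγder]
  refine ⟨γ, hγs, ⟨c * (s / 4), by positivity, fun t => ?_⟩, hγ0, hγ1, hsup, ?_, ?_⟩
  · rw [hγder]
    exact mul_le_mul_of_nonneg_left (hkη' t) hcpos.le
  · rw [hfun]
    exact hckh
  · rw [hfun]
    exact hR6.trans hθε


/-- the fundamental theorem of calculus on `[0,t]` for a function absolutely continuous on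
`[0,1]` -/
theorem p73a_ftc (g : ℝ → ℝ) (hac : AbsolutelyContinuousOnInterval g 0 1) (t : ℝ)
    (ht : t ∈ Icc (0 : ℝ) 1) : g t - g 0 = ∫ u in (0 : ℝ)..t, deriv g u := by
  have h1 : AbsolutelyContinuousOnInterval g 0 t := by
    refine hac.mono ?_
    rw [uIcc_of_le ht.1, uIcc_of_le zero_le_one]
    exact Icc_subset_Icc le_rfl ht.2
  exact h1.integral_deriv_eq_sub.symm

theorem p73_oneD_ac (p : ℝ) (hp : 1 ≤ p) (g : ℝ → ℝ)
    (hac : AbsolutelyContinuousOnInterval g 0 1)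
    (hm : StrictMonoOn g (Icc (0 : ℝ) 1))
    (hL : MemLp (deriv g) (ENNReal.ofReal p) (volume.restrict (Ioo (0 : ℝ) 1)))
    (ε : ℝ) (hε : 0 < ε) :
    ∃ γ : ℝ → ℝ, ContDiff ℝ ∞ γ ∧ (∃ c : ℝ, 0 < c ∧ ∀ t, c ≤ deriv γ t) ∧
      γ 0 = g 0 ∧ γ 1 = g 1 ∧ (∀ t ∈ Icc (0 : ℝ) 1, |γ t - g t| ≤ ε) ∧
      IntegrableOn (fun t => |deriv γ t - deriv g t| ^ p) (Ioo (0 : ℝ) 1) ∧
      ∫ t in Ioo (0 : ℝ) 1, |deriv γ t - deriv g t| ^ p ≤ ε :=
  p73_oneD_core p hp g (p73a_ftc g hac) hm hL ε hε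

end Vale.Agent.H20.P073
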