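import Vale.Agent.H20.P073.Main
import Vale.Agent.H20.P073.OneDAC
import Vale.Agent.H20.P073.IntegrAC

/-!
P073 (helper20): product homeomorphisms of the cube with absolutely continuous components are
diffeomorphically approximable (the statement of `Main.lean` with absolute continuity on `[0,1]`
in place of continuity on `[0,1]` and `C¹` regularity inside).
-/

namespace Vale.Agent.H20.P073

open MeasureTheory Set Filter Topology
open scoped ContDiff

/-- the `ε` form -/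
theorem p73_eps_ac (p : ℝ) (hp : 1 ≤ p) (g : Fin 3 → ℝ → ℝ)
    (hac : ∀ i, AbsolutelyContinuousOnInterval (g i) 0 1)
    (hm : ∀ i, StrictMonoOn (g i) (Icc (0 : ℝ) 1))
    (hL : ∀ i, MemLp (deriv (g i)) (ENNReal.ofReal p) (volume.restrict (Ioo (0 : ℝ) 1)))
    (ε : ℝ) (hε : 0 < ε) :
    ∃ F : (Fin 3 → ℝ) → (Fin 3 → ℝ), ContDiff ℝ ∞ F ∧
      (∃ G : (Fin 3 → ℝ) → (Fin 3 → ℝ), ContDiff ℝ ∞ G ∧ (∀ x, G (F x) = x) ∧
        ∀ y, F (G y) = y) ∧
      F '' cube = prodMap g '' cube ∧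
      IntegrableOn (fun x => eucl (F x - prodMap g x) ^ p
        + frob (fderiv ℝ F x - fderiv ℝ (prodMap g) x) ^ p) cube ∧
      ∫ x in cube, (eucl (F x - prodMap g x) ^ p
        + frob (fderiv ℝ F x - fderiv ℝ (prodMap g) x) ^ p) ≤ ε := by
  have hp0 : 0 ≤ p := le_trans zero_le_one hp
  have h3 : (0 : ℝ) < 3 ^ p := Real.rpow_pos_of_pos (by norm_num) p
  set δ : ℝ := min 1 (ε / (6 * 3 ^ p)) with hδdef
  have hδ : 0 < δ := lt_min one_pos (div_pos hε (by positivity))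
  have hδ1 : δ ≤ 1 := min_le_left _ _
  have hδε : δ ≤ ε / (6 * 3 ^ p) := min_le_right _ _
  have hδp : δ ^ p ≤ δ := by
    calc δ ^ p ≤ δ ^ (1 : ℝ) := Real.rpow_le_rpow_of_exponent_ge hδ hδ1 hp
      _ = δ := Real.rpow_one δ
  have hc : ∀ i, ContinuousOn (g i) (Icc (0 : ℝ) 1) := fun i => by
    have h := (hac i).continuousOn
    rwa [uIcc_of_le zero_le_one] at h
  have h := fun i => p73_oneD_ac p hp (g i) (hac i) (hm i) (hL i) δ hδ
  choose γ hγs hγpos hγ0 hγ1 hγsup hγint hγLp using h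
  obtain ⟨hF, hG, himg⟩ := p73_diffeo γ g hγs hγpos hγ0 hγ1 hc hm
  obtain ⟨hI, hle⟩ := p73_integrand_ac p hp γ g hγs hac hγint
  refine ⟨prodMap γ, hF, hG, himg, hI, hle.trans ?_⟩
  have hsum : ∑ i, ((∫ t in Ioo (0 : ℝ) 1, |γ i t - g i t| ^ p)
      + ∫ t in Ioo (0 : ℝ) 1, |deriv (γ i) t - deriv (g i) t| ^ p) ≤ ∑ _i : Fin 3, (δ + δ) := by
    refine Finset.sum_le_sum fun i _ => add_le_add ?_ (hγLp i)
    exact (p73m_small p hp (fun t => γ i t - g i t) δ hδ.le (hγsup i)).trans hδp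
  calc 3 ^ p * ∑ i, ((∫ t in Ioo (0 : ℝ) 1, |γ i t - g i t| ^ p)
      + ∫ t in Ioo (0 : ℝ) 1, |deriv (γ i) t - deriv (g i) t| ^ p)
      ≤ 3 ^ p * ∑ _i : Fin 3, (δ + δ) := mul_le_mul_of_nonneg_left hsum h3.le
    _ = 6 * 3 ^ p * δ := by
        rw [Finset.sum_const, Finset.card_univ, Fintype.card_fin]
        simp only [nsmul_eq_mul]
        push_cast
        ring
    _ ≤ 6 * 3 ^ p * (ε / (6 * 3 ^ p)) := mul_le_mul_of_nonneg_left hδε (by positivity)
    _ = ε := by field_simp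

theorem p73_main_ac (p : ℝ) (hp : 1 ≤ p) (g : Fin 3 → ℝ → ℝ)
    (hac : ∀ i, AbsolutelyContinuousOnInterval (g i) 0 1)
    (hm : ∀ i, StrictMonoOn (g i) (Icc (0 : ℝ) 1))
    (hL : ∀ i, MemLp (deriv (g i)) (ENNReal.ofReal p) (volume.restrict (Ioo (0 : ℝ) 1))) :
    ∃ F : ℕ → (Fin 3 → ℝ) → (Fin 3 → ℝ),
      (∀ j, ContDiff ℝ ∞ (F j) ∧
        (∃ G : (Fin 3 → ℝ) → (Fin 3 → ℝ), ContDiff ℝ ∞ G ∧ (∀ x, G (F j x) = x) ∧
          ∀ y, F j (G y) = y) ∧
        F j '' cube = prodMap g '' cube ∧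
        IntegrableOn (fun x => eucl (F j x - prodMap g x) ^ p
          + frob (fderiv ℝ (F j) x - fderiv ℝ (prodMap g) x) ^ p) cube) ∧
      Tendsto (fun j => ∫ x in cube, (eucl (F j x - prodMap g x) ^ p
          + frob (fderiv ℝ (F j) x - fderiv ℝ (prodMap g) x) ^ p)) atTop (𝓝 0) := by
  have h := fun j : ℕ => p73_eps_ac p hp g hac hm hL (1 / ((j : ℝ) + 1)) (by positivity)
  choose F hF hG himg hI hle using h
  refine ⟨F, fun j => ⟨hF j, hG j, himg j, hI j⟩, ?_⟩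
  refine tendsto_of_tendsto_of_tendsto_of_le_of_le tendsto_const_nhds
    tendsto_one_div_add_atTop_nhds_zero_nat (fun j => ?_) (fun j => hle j)
  refine integral_nonneg fun x => ?_
  exact add_nonneg (Real.rpow_nonneg (Real.sqrt_nonneg _) p)
    (Real.rpow_nonneg (Real.sqrt_nonneg _) p)

end Vale.Agent.H20.P073
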