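import Vale.Agent.H20.P073.MainAC

/-!
P073 (helper20): ALL product homeomorphisms of the cube in `W^{1,p}` are diffeomorphically
approximable: components absolutely continuous on `[0,1]`, each strictly increasing or strictly
decreasing, with derivative in `L^p(0,1)`.

The decreasing components are reduced to increasing ones by the coordinatewise sign change
`S x = (σ₁ x₁, σ₂ x₂, σ₃ x₃)`, `σ i = ±1`, a linear involution of `ℝ³`: if `prodMap gh` with
`gh i = σ i * g i` is approximated by `Fh j`, then `prodMap g = S ∘ prodMap gh` is approximated by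
`S ∘ Fh j`, and `S` changes neither the Euclidean norm nor the Frobenius norm.
-/

namespace Vale.Agent.H20.P073

open MeasureTheory Set Filter Topology
open scoped ContDiff

/-- the coordinatewise multiplication by `σ`, as a linear map -/
def signLin (σ : Fin 3 → ℝ) : (Fin 3 → ℝ) →ₗ[ℝ] (Fin 3 → ℝ) :=
  LinearMap.pi fun i => σ i • LinearMap.proj i

theorem p73s_signLin_apply (σ : Fin 3 → ℝ) (x : Fin 3 → ℝ) (i : Fin 3) :
    signLin σ x i = σ i * x i := by
  simp [signLin]

theorem p73s_invol (σ : Fin 3 → ℝ) (hσ : ∀ i, σ i * σ i = 1) :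
    Function.Involutive (signLin σ) := by
  intro x
  funext i
  rw [p73s_signLin_apply, p73s_signLin_apply, ← mul_assoc, hσ, one_mul]

/-- the sign change as a continuous linear equivalence -/
noncomputable def signEquiv (σ : Fin 3 → ℝ) (hσ : ∀ i, σ i * σ i = 1) :
    (Fin 3 → ℝ) ≃L[ℝ] (Fin 3 → ℝ) :=
  (LinearEquiv.ofInvolutive (signLin σ) (p73s_invol σ hσ)).toContinuousLinearEquiv

theorem p73s_signEquiv_apply (σ : Fin 3 → ℝ) (hσ : ∀ i, σ i * σ i = 1) (x : Fin 3 → ℝ)
    (i : Fin 3) : signEquiv σ hσ x i = σ i * x i := by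
  simp [signEquiv, p73s_signLin_apply]

theorem p73_main_all (p : ℝ) (hp : 1 ≤ p) (g : Fin 3 → ℝ → ℝ)
    (hac : ∀ i, AbsolutelyContinuousOnInterval (g i) 0 1)
    (hm : ∀ i, StrictMonoOn (g i) (Icc (0 : ℝ) 1) ∨ StrictAntiOn (g i) (Icc (0 : ℝ) 1))
    (hL : ∀ i, MemLp (deriv (g i)) (ENNReal.ofReal p) (volume.restrict (Ioo (0 : ℝ) 1))) :
    ∃ F : ℕ → (Fin 3 → ℝ) → (Fin 3 → ℝ),
      (∀ j, ContDiff ℝ ∞ (F j) ∧
        (∃ G : (Fin 3 → ℝ) → (Fin 3 → ℝ), ContDiff ℝ ∞ G ∧ (∀ x, G (F j x) = x) ∧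
          ∀ y, F j (G y) = y) ∧
        F j '' cube = prodMap g '' cube ∧
        IntegrableOn (fun x => eucl (F j x - prodMap g x) ^ p
          + frob (fderiv ℝ (F j) x - fderiv ℝ (prodMap g) x) ^ p) cube) ∧
      Tendsto (fun j => ∫ x in cube, (eucl (F j x - prodMap g x) ^ p
          + frob (fderiv ℝ (F j) x - fderiv ℝ (prodMap g) x) ^ p)) atTop (𝓝 0) := by
  have hσex : ∀ i, ∃ s : ℝ, s * s = 1 ∧ StrictMonoOn (fun t => s * g i t) (Icc (0 : ℝ) 1) := by
    intro i
    rcases hm i with h | h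
    · exact ⟨1, by norm_num, by simpa using h⟩
    · refine ⟨-1, by norm_num, ?_⟩
      intro a ha b hb hab
      have h1 := h ha hb hab
      simp only [neg_mul, one_mul, neg_lt_neg_iff]
      exact h1
  choose σ hσ hσm using hσex
  obtain ⟨gh, hgh⟩ : ∃ gh : Fin 3 → ℝ → ℝ, gh = fun i t => σ i * g i t := ⟨_, rfl⟩
  have hach : ∀ i, AbsolutelyContinuousOnInterval (gh i) 0 1 := fun i => by
    rw [hgh]
    exact (hac i).const_mul (σ i)
  have hmh : ∀ i, StrictMonoOn (gh i) (Icc (0 : ℝ) 1) := fun i => by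
    rw [hgh]
    exact hσm i
  have hLh : ∀ i, MemLp (deriv (gh i)) (ENNReal.ofReal p) (volume.restrict (Ioo (0 : ℝ) 1)) := by
    intro i
    have h1 : deriv (gh i) = fun t => σ i * deriv (g i) t := by
      rw [hgh]
      funext t
      exact deriv_const_mul_field (σ i)
    rw [h1]
    exact (hL i).const_mul (σ i)
  obtain ⟨Fh, hFh, hT⟩ := p73_main_ac p hp gh hach hmh hLh
  obtain ⟨S, hSdef⟩ : ∃ S : (Fin 3 → ℝ) ≃L[ℝ] (Fin 3 → ℝ), S = signEquiv σ hσ := ⟨_, rfl⟩
  have hS : ∀ (x : Fin 3 → ℝ) (i : Fin 3), S x i = σ i * x i := fun x i => by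
    rw [hSdef]
    exact p73s_signEquiv_apply σ hσ x i
  have hSS : ∀ x : Fin 3 → ℝ, S (S x) = x := fun x => by
    funext i
    rw [hS, hS, ← mul_assoc, hσ, one_mul]
  have hgS : prodMap g = fun x => S (prodMap gh x) := by
    funext x i
    rw [hS, hgh]
    simp only [prodMap]
    rw [← mul_assoc, hσ, one_mul]
  have hsq : ∀ (i : Fin 3) (a : ℝ), (σ i * a) ^ 2 = a ^ 2 := fun i a => by
    rw [mul_pow, sq (σ i), hσ i, one_mul]
  -- the sign change does not change the integrand
  have hint : ∀ (H : (Fin 3 → ℝ) → (Fin 3 → ℝ)) (x : Fin 3 → ℝ),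
      eucl (S (H x) - prodMap g x) ^ p
        + frob (fderiv ℝ (fun y => S (H y)) x - fderiv ℝ (prodMap g) x) ^ p
      = eucl (H x - prodMap gh x) ^ p
        + frob (fderiv ℝ H x - fderiv ℝ (prodMap gh) x) ^ p := by
    intro H x
    have e1 : eucl (S (H x) - prodMap g x) = eucl (H x - prodMap gh x) := by
      rw [hgS]
      unfold eucl
      congr 1
      refine Finset.sum_congr rfl fun i _ => ?_
      simp only [Pi.sub_apply, hS]
      rw [← mul_sub, hsq]
    have d1 : fderiv ℝ (fun y => S (H y)) x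
        = (S : (Fin 3 → ℝ) →L[ℝ] (Fin 3 → ℝ)).comp (fderiv ℝ H x) := S.comp_fderiv
    have d2 : fderiv ℝ (prodMap g) x
        = (S : (Fin 3 → ℝ) →L[ℝ] (Fin 3 → ℝ)).comp (fderiv ℝ (prodMap gh) x) := by
      rw [hgS]
      exact S.comp_fderiv
    have e2 : frob (fderiv ℝ (fun y => S (H y)) x - fderiv ℝ (prodMap g) x)
        = frob (fderiv ℝ H x - fderiv ℝ (prodMap gh) x) := by
      rw [d1, d2, ← ContinuousLinearMap.comp_sub]
      unfold frob
      congr 1
      refine Finset.sum_congr rfl fun i _ => Finset.sum_congr rfl fun k _ => ?_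
      simp only [ContinuousLinearMap.comp_apply, ContinuousLinearEquiv.coe_coe, hS]
      rw [hsq]
    rw [e1, e2]
  refine ⟨fun j x => S (Fh j x), fun j => ⟨?_, ?_, ?_, ?_⟩, ?_⟩
  · exact S.contDiff.comp (hFh j).1
  · obtain ⟨G, hG, hGF, hFG⟩ := (hFh j).2.1
    refine ⟨fun y => G (S y), hG.comp S.contDiff, fun x => ?_, fun y => ?_⟩
    · simp only
      rw [hSS, hGF]
    · simp only
      rw [hFG, hSS]
  · have h1 := (hFh j).2.2.1
    rw [hgS]
    calc (fun x => S (Fh j x)) '' cube = S '' (Fh j '' cube) := by rw [image_image]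
      _ = S '' (prodMap gh '' cube) := by rw [h1]
      _ = (fun x => S (prodMap gh x)) '' cube := by rw [image_image]
  · have h2 := (hFh j).2.2.2
    have h3 : (fun x => eucl (S (Fh j x) - prodMap g x) ^ p
        + frob (fderiv ℝ (fun y => S (Fh j y)) x - fderiv ℝ (prodMap g) x) ^ p)
        = fun x => eucl (Fh j x - prodMap gh x) ^ p
          + frob (fderiv ℝ (Fh j) x - fderiv ℝ (prodMap gh) x) ^ p := funext (hint (Fh j))
    rw [h3]
    exact h2
  · have h4 : (fun j => ∫ x in cube, (eucl (S (Fh j x) - prodMap g x) ^ p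
        + frob (fderiv ℝ (fun y => S (Fh j y)) x - fderiv ℝ (prodMap g) x) ^ p))
        = fun j => ∫ x in cube, (eucl (Fh j x - prodMap gh x) ^ p
          + frob (fderiv ℝ (Fh j) x - fderiv ℝ (prodMap gh) x) ^ p) := by
      funext j
      exact integral_congr_ae (Filter.Eventually.of_forall (hint (Fh j)))
    rw [h4]
    exact hT

end Vale.Agent.H20.P073
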