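import Vale.Agent.H20.P073.Defs

/-!
TASK P073-POS (replace the `sorry`, keep the statement exactly; helper lemmas in this file, names
starting `p73p_`).

Claim: for a real polynomial `q` and `η > 0` the function `k t = √(q(t)² + η²)` is `C^∞` on `ℝ`,
`k ≥ η`, and `|k t - y| ≤ |q t - y| + η` for every `y ≥ 0`.

Sketch.  Smoothness: `ContDiff.sqrt` (argument `q(t)² + η² > 0`), polynomial evaluation is smooth
(`Polynomial.contDiff`, or `q.differentiable`-style lemmas; `Polynomial.contDiff_aeval`).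
`η = √(η²) ≤ √(q² + η²)` (`Real.sqrt_le_sqrt`, `Real.sqrt_sq`).  `|q| ≤ k ≤ |q| + η`
(`Real.sqrt_le_left`/`Real.sqrt_le_sqrt` with `q² ≤ q² + η² ≤ (|q| + η)²`, `Real.sqrt_sq_eq_abs`),
so `|k - y| ≤ |k - |q|| + ||q| - y| ≤ η + |q - y|`, the last step because `y = |y|` and
`abs_abs_sub_abs_le_abs_sub`.
-/

namespace Vale.Agent.H20.P073

open scoped ContDiff

theorem p73_pos (q : Polynomial ℝ) (η : ℝ) (hη : 0 < η) :
    ContDiff ℝ ∞ (fun t : ℝ => Real.sqrt (q.eval t ^ 2 + η ^ 2)) ∧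
    (∀ t : ℝ, η ≤ Real.sqrt (q.eval t ^ 2 + η ^ 2)) ∧
    (∀ t y : ℝ, 0 ≤ y → |Real.sqrt (q.eval t ^ 2 + η ^ 2) - y| ≤ |q.eval t - y| + η) := by
  have hpos : ∀ t : ℝ, 0 < q.eval t ^ 2 + η ^ 2 := fun t => by positivity
  have hq : ContDiff ℝ ∞ (fun t : ℝ => q.eval t) := by
    have h1 := Polynomial.contDiff_aeval (𝕜 := ℝ) q ∞
    simpa [Polynomial.aeval_def, Polynomial.eval₂_eq_eval_map] using h1
  have hlow : ∀ t : ℝ, |q.eval t| ≤ Real.sqrt (q.eval t ^ 2 + η ^ 2) := fun t => by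
    rw [Real.le_sqrt (abs_nonneg _) (hpos t).le, sq_abs]
    nlinarith [sq_nonneg η]
  have hupp : ∀ t : ℝ, Real.sqrt (q.eval t ^ 2 + η ^ 2) ≤ |q.eval t| + η := fun t => by
    rw [Real.sqrt_le_iff]
    refine ⟨by positivity, ?_⟩
    have h1 : (|q.eval t| + η) ^ 2 = q.eval t ^ 2 + 2 * |q.eval t| * η + η ^ 2 := by
      rw [add_sq, sq_abs]
    rw [h1]
    nlinarith [abs_nonneg (q.eval t), mul_nonneg (abs_nonneg (q.eval t)) hη.le]
  refine ⟨?_, ?_, ?_⟩
  · exact ((hq.pow 2).add contDiff_const).sqrt (fun t => (hpos t).ne')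
  · intro t
    rw [Real.le_sqrt' hη]
    nlinarith [sq_nonneg (q.eval t)]
  · intro t y hy
    have h1 := hlow t
    have h2 := hupp t
    have h3 : |q.eval t| - y ≤ |q.eval t - y| := by
      have h4 := abs_sub_abs_le_abs_sub (q.eval t) y
      rw [abs_of_nonneg hy] at h4
      exact h4
    have h5 : y - |q.eval t| ≤ |q.eval t - y| := by
      have h4 := abs_sub_abs_le_abs_sub y (q.eval t)
      rw [abs_of_nonneg hy, abs_sub_comm] at h4
      exact h4
    rw [abs_le]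
    constructor <;> linarith

end Vale.Agent.H20.P073
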