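import Vale.Agent.H20.P073.Defs

/-!
TASK P073-PRIM (replace the `sorry`, keep the statement exactly; helper lemmas in this file, names
starting `p73i_`).

Claim: the primitive `K t = ∫ s in 0..t, k s` of a `C^∞` function `k : ℝ → ℝ` is `C^∞` and has
derivative `k t` at every `t`.

Sketch.  `HasDerivAt`: `intervalIntegral.integral_hasDerivAt_right` (interval integrability from
continuity: `Continuous.intervalIntegrable`; `Continuous.stronglyMeasurableAtFilter`;
`Continuous.continuousAt`).  Hence `deriv K = k` (`funext`, `HasDerivAt.deriv`) and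
`contDiff_infty_iff_deriv` (or `contDiff_succ_iff_deriv` for every `n`) gives smoothness:
`K` is differentiable and `deriv K = k` is `C^∞`.
-/

namespace Vale.Agent.H20.P073

open scoped ContDiff

theorem p73_prim (k : ℝ → ℝ) (hk : ContDiff ℝ ∞ k) :
    ContDiff ℝ ∞ (fun t : ℝ => ∫ s in (0 : ℝ)..t, k s) ∧
    ∀ t : ℝ, HasDerivAt (fun t : ℝ => ∫ s in (0 : ℝ)..t, k s) (k t) t := by
  have hc : Continuous k := hk.continuous
  have hd : ∀ t : ℝ, HasDerivAt (fun t : ℝ => ∫ s in (0 : ℝ)..t, k s) (k t) t := fun t =>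
    intervalIntegral.integral_hasDerivAt_right (hc.intervalIntegrable 0 t)
      (hc.stronglyMeasurableAtFilter _ _) hc.continuousAt
  refine ⟨?_, hd⟩
  rw [contDiff_infty_iff_deriv]
  refine ⟨fun t => (hd t).differentiableAt, ?_⟩
  have hderiv : deriv (fun t : ℝ => ∫ s in (0 : ℝ)..t, k s) = k := funext fun t => (hd t).deriv
  rw [hderiv]
  exact hk

end Vale.Agent.H20.P073
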